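import Mathlib

/-!
Definitions for the three-marginal Coulomb optimal transport problem. They are stated for a
metric space `X` and used for `X = R3 = ℝ³` with its Euclidean distance.
-/

open MeasureTheory
open scoped ENNReal

namespace Vale.Agent.H13.P121

/-- Three-dimensional Euclidean space. -/
abbrev R3 : Type := EuclideanSpace ℝ (Fin 3)

variable {X : Type} [PseudoEMetricSpace X] [MeasurableSpace X]

/-- The Coulomb cost `1/|x-y| + 1/|x-z| + 1/|y-z|`, with values in `[0,∞]`; it is `∞` exactly
when two of the points coincide (in a metric space). -/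
noncomputable def coulombCost (x y z : X) : ℝ≥0∞ :=
  (edist x y)⁻¹ + (edist x z)⁻¹ + (edist y z)⁻¹

omit [PseudoEMetricSpace X] in
/-- The couplings `Π(μ,μ,μ)`: probability measures on `X³` with all three coordinate
marginals equal to `μ`. -/
def couplings (μ : Measure X) : Set (Measure (X × X × X)) :=
  {π | IsProbabilityMeasure π ∧ π.map (fun p => p.1) = μ ∧ π.map (fun p => p.2.1) = μ ∧
    π.map (fun p => p.2.2) = μ}

/-- The Kantorovich value: infimum of the Coulomb cost over all couplings. -/
noncomputable def kantorovichValue (μ : Measure X) : ℝ≥0∞ :=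
  ⨅ π ∈ couplings μ, ∫⁻ p, coulombCost p.1 p.2.1 p.2.2 ∂π

/-- `(Id, T₂, T₃)_# μ` is a Monge plan: `T₂, T₃` are measurable and preserve `μ`. -/
def IsMongePlan (μ : Measure X) (T₂ T₃ : X → X) : Prop :=
  Measurable T₂ ∧ Measurable T₃ ∧ μ.map T₂ = μ ∧ μ.map T₃ = μ

/-- The cost of the Monge plan `(Id, T₂, T₃)_# μ`. -/
noncomputable def mongeCost (μ : Measure X) (T₂ T₃ : X → X) : ℝ≥0∞ :=
  ∫⁻ x, coulombCost x (T₂ x) (T₃ x) ∂μ

end Vale.Agent.H13.P121
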