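import Mathlib
import Vale.Agent.H13.P121.Defs

/-!
Abstract non-existence criterion for optimal Monge plans.
-/

open MeasureTheory
open scoped ENNReal

namespace Vale.Agent.H13.P121

theorem measurable_coulombCost :
    Measurable (fun p : R3 × R3 × R3 => coulombCost p.1 p.2.1 p.2.2) := by
  unfold coulombCost
  fun_prop

theorem coulombCost_rot (x y z : R3) : coulombCost y z x = coulombCost x y z := by
  unfold coulombCost
  rw [edist_comm z x, edist_comm y x]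
  ring

/-- The data of the construction. -/
structure Data where
  lam : Measure R3
  prob : IsProbabilityMeasure lam
  A : Set R3
  hA : MeasurableSet A
  lamA : lam Aᶜ = 0
  f : Fin 4 → R3 → R3
  f_meas : ∀ i, Measurable (f i)
  f_inj : ∀ i, Set.InjOn (f i) A
  f_disj : ∀ i j, i ≠ j → ∀ x ∈ A, ∀ y ∈ A, f i x ≠ f j y
  f_disjA : ∀ i, ∀ x ∈ A, f i x ∉ A
  φ : R3 → ℝ≥0∞
  φ_meas : Measurable φ
  φ_bdd : ∀ x : R3, (x ∈ A ∨ ∃ i, x ∈ f i '' A) → φ x ≤ 10
  ineq : ∀ x y z : R3, (x ∈ A ∨ ∃ i, x ∈ f i '' A) → (y ∈ A ∨ ∃ i, y ∈ f i '' A) →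
    (z ∈ A ∨ ∃ i, z ∈ f i '' A) → φ x + φ y + φ z ≤ coulombCost x y z
  eq01 : ∀ a ∈ A, coulombCost a (f 0 a) (f 1 a) = φ a + φ (f 0 a) + φ (f 1 a)
  eq23 : ∀ a ∈ A, coulombCost a (f 2 a) (f 3 a) = φ a + φ (f 2 a) + φ (f 3 a)
  contact : ∀ a ∈ A, ∀ y z : R3, (y ∈ A ∨ ∃ i, y ∈ f i '' A) → (z ∈ A ∨ ∃ i, z ∈ f i '' A) →
    coulombCost a y z = φ a + φ y + φ z → ∃ i, y = f i a

namespace Data

variable (D : Data)

/-- The support set. -/
def S : Set R3 := {x | x ∈ D.A ∨ ∃ i, x ∈ D.f i '' D.A}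

/-- The marginal. -/
noncomputable def μ : Measure R3 :=
  (6⁻¹ : ℝ≥0∞) • (D.lam + D.lam + ∑ i, D.lam.map (D.f i))

instance : IsProbabilityMeasure D.lam := D.prob

theorem ae_lam : ∀ᵐ x ∂D.lam, x ∈ D.A := D.lamA

theorem isProb : IsProbabilityMeasure D.μ := by
  constructor
  have h : ∀ i, (D.lam.map (D.f i)) Set.univ = 1 := by
    intro i
    rw [Measure.map_apply (D.f_meas i) MeasurableSet.univ]
    simp
  simp only [μ, Measure.smul_apply, Measure.add_apply, Measure.finsetSum_apply, h, measure_univ,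
    smul_eq_mul]
  simp only [Finset.sum_const, Finset.card_univ, Fintype.card_fin]
  norm_num
  exact ENNReal.inv_mul_cancel (by norm_num) (by norm_num)

theorem ae_S : ∀ᵐ x ∂D.μ, x ∈ D.S := by
  have h1 : ∀ᵐ x ∂D.lam, x ∈ D.S := by
    filter_upwards [D.ae_lam] with x hx using Or.inl hx
  have hSmeas : MeasurableSet D.S := by
    have : D.S = D.A ∪ ⋃ i, D.f i '' D.A := by
      ext x; simp [S]
    rw [this]
    refine D.hA.union (MeasurableSet.iUnion fun i => ?_)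
    exact D.hA.image_of_measurable_injOn (D.f_meas i) (D.f_inj i)
  have h2 : ∀ i, ∀ᵐ x ∂(D.lam.map (D.f i)), x ∈ D.S := by
    intro i
    refine (ae_map_iff (D.f_meas i).aemeasurable hSmeas).mpr ?_
    filter_upwards [D.ae_lam] with x hx using Or.inr ⟨i, x, hx, rfl⟩
  have h3 : ∀ᵐ x ∂(D.lam + D.lam + ∑ i, D.lam.map (D.f i)), x ∈ D.S := by
    rw [Fin.sum_univ_four]
    simp only [ae_add_measure_iff]
    exact ⟨⟨h1, h1⟩, ⟨⟨h2 0, h2 1⟩, h2 2⟩, h2 3⟩
  exact Measure.ae_smul_measure h3 _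

/-- The integral of the potential. -/
noncomputable def I : ℝ≥0∞ := ∫⁻ x, D.φ x ∂D.μ

theorem I_ne_top : D.I ≠ ∞ := by
  have := D.isProb
  have : D.I ≤ 10 := by
    calc D.I ≤ ∫⁻ _, 10 ∂D.μ := by
          apply lintegral_mono_ae
          filter_upwards [D.ae_S] with x hx using D.φ_bdd x hx
      _ = 10 := by simp
  exact ne_top_of_le_ne_top (by norm_num) this

theorem sum_le {α : Type*} [MeasurableSpace α] (π : Measure α) (u v w : α → R3)
    (hu : Measurable u) (hv : Measurable v) (hw : Measurable w)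
    (hu' : π.map u = D.μ) (hv' : π.map v = D.μ) (hw' : π.map w = D.μ) :
    (∫⁻ p, (D.φ (u p) + D.φ (v p) + D.φ (w p)) ∂π = D.I + D.I + D.I) ∧
    ∀ᵐ p ∂π, D.φ (u p) + D.φ (v p) + D.φ (w p) ≤ coulombCost (u p) (v p) (w p) := by
  constructor
  · have h1 : ∀ (t : α → R3), Measurable t → π.map t = D.μ → ∫⁻ p, D.φ (t p) ∂π = D.I := by
      intro t ht ht'
      rw [I, ← ht', lintegral_map D.φ_meas ht]
    have mu : Measurable fun p => D.φ (u p) := D.φ_meas.comp hu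
    have mv : Measurable fun p => D.φ (v p) := D.φ_meas.comp hv
    have muv : Measurable fun p => D.φ (u p) + D.φ (v p) := mu.add mv
    rw [lintegral_add_left muv, lintegral_add_left mu, h1 u hu hu', h1 v hv hv',
      h1 w hw hw']
  · have h2 : ∀ (t : α → R3), Measurable t → π.map t = D.μ → ∀ᵐ p ∂π, t p ∈ D.S := by
      intro t ht ht'
      apply ae_of_ae_map ht.aemeasurable
      rw [ht']
      exact D.ae_S
    filter_upwards [h2 u hu hu', h2 v hv hv', h2 w hw hw'] with p h1 h2 h3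
    exact D.ineq _ _ _ h1 h2 h3

theorem lower (π : Measure (R3 × R3 × R3)) (hπ : π ∈ couplings D.μ) :
    D.I + D.I + D.I ≤ ∫⁻ p, coulombCost p.1 p.2.1 p.2.2 ∂π := by
  obtain ⟨-, h1, h2, h3⟩ := hπ
  obtain ⟨h4, h5⟩ := D.sum_le π (fun p => p.1) (fun p => p.2.1) (fun p => p.2.2)
    (by fun_prop) (by fun_prop) (by fun_prop) h1 h2 h3
  rw [← h4]
  exact lintegral_mono_ae h5

/-- The optimal plan. -/
noncomputable def plan : Measure (R3 × R3 × R3) :=
  (6⁻¹ : ℝ≥0∞) • ((D.lam.map (fun a => (a, D.f 0 a, D.f 1 a)) +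
    D.lam.map (fun a => (D.f 0 a, D.f 1 a, a)) + D.lam.map (fun a => (D.f 1 a, a, D.f 0 a))) +
    (D.lam.map (fun a => (a, D.f 2 a, D.f 3 a)) +
    D.lam.map (fun a => (D.f 2 a, D.f 3 a, a)) + D.lam.map (fun a => (D.f 3 a, a, D.f 2 a))))

theorem plan_marginal (g : R3 × R3 × R3 → R3) (hg : Measurable g)
    (h : D.lam.map (fun a => g (a, D.f 0 a, D.f 1 a)) + D.lam.map (fun a => g (D.f 0 a, D.f 1 a, a))
      + D.lam.map (fun a => g (D.f 1 a, a, D.f 0 a)) = D.lam + D.lam.map (D.f 0) + D.lam.map (D.f 1))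
    (h' : D.lam.map (fun a => g (a, D.f 2 a, D.f 3 a)) + D.lam.map (fun a => g (D.f 2 a, D.f 3 a, a))
      + D.lam.map (fun a => g (D.f 3 a, a, D.f 2 a)) = D.lam + D.lam.map (D.f 2) + D.lam.map (D.f 3)) :
    D.plan.map g = D.μ := by
  have f0 := D.f_meas 0
  have f1 := D.f_meas 1
  have f2 := D.f_meas 2
  have f3 := D.f_meas 3
  rw [plan, Measure.map_smul]
  simp only [Measure.map_add _ _ hg]
  rw [Measure.map_map hg (by fun_prop), Measure.map_map hg (by fun_prop),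
    Measure.map_map hg (by fun_prop), Measure.map_map hg (by fun_prop),
    Measure.map_map hg (by fun_prop), Measure.map_map hg (by fun_prop)]
  simp only [Function.comp_def]
  rw [h, h', μ, Fin.sum_univ_four]
  congr 1
  abel

theorem plan_mem : D.plan ∈ couplings D.μ := by
  have e1 : D.plan.map (fun p => p.1) = D.μ := by
    apply D.plan_marginal _ (by fun_prop)
    · simp only [Measure.map_id']
    · simp only [Measure.map_id']
  have e2 : D.plan.map (fun p => p.2.1) = D.μ := by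
    apply D.plan_marginal _ (by fun_prop)
    · simp only [Measure.map_id']; abel
    · simp only [Measure.map_id']; abel
  have e3 : D.plan.map (fun p => p.2.2) = D.μ := by
    apply D.plan_marginal _ (by fun_prop)
    · simp only [Measure.map_id']; abel
    · simp only [Measure.map_id']; abel
  refine ⟨?_, e1, e2, e3⟩
  constructor
  have := D.isProb
  have h1 : (D.plan.map (fun p => p.1)) Set.univ = 1 := by rw [e1]; exact measure_univ
  rwa [Measure.map_apply (by fun_prop) MeasurableSet.univ, Set.preimage_univ] at h1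

theorem plan_cost : ∫⁻ p, coulombCost p.1 p.2.1 p.2.2 ∂D.plan = D.I + D.I + D.I := by
  have f0 := D.f_meas 0
  have f1 := D.f_meas 1
  have f2 := D.f_meas 2
  have f3 := D.f_meas 3
  have hφ := D.φ_meas
  have hc : ∀ t : R3 → R3 × R3 × R3, Measurable t →
      ∫⁻ p, coulombCost p.1 p.2.1 p.2.2 ∂(D.lam.map t)
        = ∫⁻ a, coulombCost (t a).1 (t a).2.1 (t a).2.2 ∂D.lam := by
    intro t ht
    exact lintegral_map measurable_coulombCost ht
  have hI : D.I = 6⁻¹ * ((∫⁻ a, D.φ a ∂D.lam) + (∫⁻ a, D.φ a ∂D.lam) +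
      ((∫⁻ a, D.φ (D.f 0 a) ∂D.lam) + (∫⁻ a, D.φ (D.f 1 a) ∂D.lam) +
      (∫⁻ a, D.φ (D.f 2 a) ∂D.lam) + (∫⁻ a, D.φ (D.f 3 a) ∂D.lam))) := by
    rw [I, μ, Fin.sum_univ_four]
    simp only [lintegral_smul_measure, lintegral_add_measure, smul_eq_mul]
    rw [lintegral_map hφ f0, lintegral_map hφ f1, lintegral_map hφ f2, lintegral_map hφ f3]
  have h01 : ∫⁻ a, coulombCost a (D.f 0 a) (D.f 1 a) ∂D.lam
      = (∫⁻ a, D.φ a ∂D.lam) + (∫⁻ a, D.φ (D.f 0 a) ∂D.lam) + (∫⁻ a, D.φ (D.f 1 a) ∂D.lam) := by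
    rw [← lintegral_add_left (by fun_prop), ← lintegral_add_left (by fun_prop)]
    apply lintegral_congr_ae
    filter_upwards [D.ae_lam] with a ha using D.eq01 a ha
  have h23 : ∫⁻ a, coulombCost a (D.f 2 a) (D.f 3 a) ∂D.lam
      = (∫⁻ a, D.φ a ∂D.lam) + (∫⁻ a, D.φ (D.f 2 a) ∂D.lam) + (∫⁻ a, D.φ (D.f 3 a) ∂D.lam) := by
    rw [← lintegral_add_left (by fun_prop), ← lintegral_add_left (by fun_prop)]
    apply lintegral_congr_ae
    filter_upwards [D.ae_lam] with a ha using D.eq23 a ha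
  rw [plan]
  simp only [lintegral_smul_measure, lintegral_add_measure, smul_eq_mul]
  rw [hc _ (by fun_prop), hc _ (by fun_prop), hc _ (by fun_prop), hc _ (by fun_prop),
    hc _ (by fun_prop), hc _ (by fun_prop)]
  have r1 : ∀ a x y : R3, coulombCost x y a = coulombCost a x y := fun a x y =>
    coulombCost_rot a x y
  have r2 : ∀ a x y : R3, coulombCost y a x = coulombCost a x y := fun a x y => by
    rw [coulombCost_rot, coulombCost_rot]
  have s1 : ∫⁻ a, coulombCost (D.f 0 a) (D.f 1 a) a ∂D.lam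
      = ∫⁻ a, coulombCost a (D.f 0 a) (D.f 1 a) ∂D.lam := lintegral_congr fun a => r1 _ _ _
  have s2 : ∫⁻ a, coulombCost (D.f 1 a) a (D.f 0 a) ∂D.lam
      = ∫⁻ a, coulombCost a (D.f 0 a) (D.f 1 a) ∂D.lam := lintegral_congr fun a => r2 _ _ _
  have s3 : ∫⁻ a, coulombCost (D.f 2 a) (D.f 3 a) a ∂D.lam
      = ∫⁻ a, coulombCost a (D.f 2 a) (D.f 3 a) ∂D.lam := lintegral_congr fun a => r1 _ _ _
  have s4 : ∫⁻ a, coulombCost (D.f 3 a) a (D.f 2 a) ∂D.lam
      = ∫⁻ a, coulombCost a (D.f 2 a) (D.f 3 a) ∂D.lam := lintegral_congr fun a => r2 _ _ _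
  simp only
  rw [s1, s2, s3, s4, h01, h23, hI]
  ring

theorem kantorovich_eq : kantorovichValue D.μ = D.I + D.I + D.I := by
  apply le_antisymm
  · rw [← D.plan_cost]
    exact iInf₂_le D.plan D.plan_mem
  · exact le_iInf₂ fun π hπ => D.lower π hπ

/-- Mass of images. -/
theorem mu_image (i : Fin 4) (P : Set R3) (hP : MeasurableSet P) (hPA : P ⊆ D.A) :
    D.μ (D.f i '' P) = 6⁻¹ * D.lam P := by
  have hQ : MeasurableSet (D.f i '' P) :=
    hP.image_of_measurable_injOn (D.f_meas i) ((D.f_inj i).mono hPA)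
  have h0 : D.lam (D.f i '' P) = 0 := by
    refine measure_mono_null ?_ D.lamA
    rintro _ ⟨x, hx, rfl⟩
    exact D.f_disjA i x (hPA hx)
  have hself : D.lam (D.f i ⁻¹' (D.f i '' P)) = D.lam P := by
    apply measure_congr
    filter_upwards [D.ae_lam] with x hx
    apply propext
    constructor
    · rintro ⟨y, hy, hxy⟩
      rwa [← D.f_inj i (hPA hy) hx hxy]
    · intro h
      exact ⟨x, h, rfl⟩
  have hother : ∀ j, j ≠ i → D.lam (D.f j ⁻¹' (D.f i '' P)) = 0 := by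
    intro j hj
    refine measure_mono_null ?_ D.lamA
    rintro x ⟨y, hy, hxy⟩ hx
    exact D.f_disj i j hj.symm y (hPA hy) x hx hxy
  have hsum : ∑ j, (D.lam.map (D.f j)) (D.f i '' P) = D.lam P := by
    rw [Finset.sum_eq_single i]
    · rw [Measure.map_apply (D.f_meas i) hQ, hself]
    · intro j _ hj
      rw [Measure.map_apply (D.f_meas j) hQ, hother j hj]
    · simp
  rw [μ, Measure.smul_apply, Measure.add_apply, Measure.add_apply, Measure.finsetSum_apply,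
    hsum, h0]
  simp

theorem mu_ge (P : Set R3) : 6⁻¹ * (D.lam P + D.lam P) ≤ D.μ P := by
  rw [μ, Measure.smul_apply, Measure.add_apply, Measure.add_apply, smul_eq_mul]
  exact mul_le_mul' le_rfl le_self_add

theorem lam_ac : D.lam ≪ D.μ := by
  intro s hs
  have := D.mu_ge s
  rw [hs] at this
  simpa using this

theorem null_of_preserving (T : R3 → R3) (hT : Measurable T) (hTμ : D.μ.map T = D.μ) (i : Fin 4) :
    D.lam {x | x ∈ D.A ∧ T x = D.f i x} = 0 := by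
  set P : Set R3 := {x | x ∈ D.A ∧ T x = D.f i x} with hPdef
  have hP : MeasurableSet P := D.hA.inter (measurableSet_eq_fun hT (D.f_meas i))
  have hPA : P ⊆ D.A := fun x hx => hx.1
  have hQ : MeasurableSet (D.f i '' P) :=
    hP.image_of_measurable_injOn (D.f_meas i) ((D.f_inj i).mono hPA)
  have h1 : D.μ P ≤ D.μ (D.f i '' P) := by
    calc D.μ P ≤ D.μ (T ⁻¹' (D.f i '' P)) := by
          apply measure_mono
          intro x hx
          exact ⟨x, hx, hx.2.symm⟩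
      _ = (D.μ.map T) (D.f i '' P) := (Measure.map_apply hT hQ).symm
      _ = _ := by rw [hTμ]
  rw [D.mu_image i P hP hPA] at h1
  have h2 := (D.mu_ge P).trans h1
  have h3 : D.lam P + D.lam P ≤ D.lam P := by
    have h6 : (6⁻¹ : ℝ≥0∞) ≠ 0 := by simp
    have h6' : (6⁻¹ : ℝ≥0∞) ≠ ∞ := by simp
    exact (ENNReal.mul_le_mul_iff_right h6 h6').mp h2
  have h4 : D.lam P ≠ ∞ := measure_ne_top _ _
  by_contra h5
  have h6 : D.lam P < D.lam P + D.lam P := ENNReal.lt_add_right h4 h5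
  exact absurd h3 (not_le.mpr h6)

theorem exists_not_mem (T : R3 → R3) (hT : Measurable T) (hTμ : D.μ.map T = D.μ)
    (hall : ∀ᵐ x ∂D.lam, ∃ i, T x = D.f i x) : False := by
  have hnull : ∀ i, ∀ᵐ x ∂D.lam, ¬ (x ∈ D.A ∧ T x = D.f i x) := by
    intro i
    rw [ae_iff]
    simp only [not_not]
    exact D.null_of_preserving T hT hTμ i
  have h2 : ∀ᵐ x ∂D.lam, ∀ i, ¬ (x ∈ D.A ∧ T x = D.f i x) := ae_all_iff.mpr hnull
  have h3 : ∀ᵐ x ∂D.lam, False := by
    filter_upwards [hall, D.ae_lam, h2] with x h4 h5 h6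
    obtain ⟨i, hi⟩ := h4
    exact h6 i ⟨h5, hi⟩
  simp at h3
  have := measure_univ (μ := D.lam)
  rw [h3] at this
  simp at this

theorem no_monge_aux (T₂ T₃ : R3 → R3) (hT₂ : Measurable T₂) (hμ₂ : D.μ.map T₂ = D.μ)
    (hT₃ : Measurable T₃) (hμ₃ : D.μ.map T₃ = D.μ)
    (hae : ∀ᵐ x ∂D.μ, coulombCost x (T₂ x) (T₃ x) = D.φ x + D.φ (T₂ x) + D.φ (T₃ x)) :
    False := by
  have hS₂ : ∀ᵐ x ∂D.μ, T₂ x ∈ D.S := by
    apply ae_of_ae_map hT₂.aemeasurable
    rw [hμ₂]; exact D.ae_S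
  have hS₃ : ∀ᵐ x ∂D.μ, T₃ x ∈ D.S := by
    apply ae_of_ae_map hT₃.aemeasurable
    rw [hμ₃]; exact D.ae_S
  refine D.exists_not_mem T₂ hT₂ hμ₂ ?_
  filter_upwards [D.ae_lam, D.lam_ac.ae_le hae, D.lam_ac.ae_le hS₂, D.lam_ac.ae_le hS₃]
    with x h1 h2 h3 h4
  exact D.contact x h1 _ _ h3 h4 h2

theorem no_monge_ae (T₂ T₃ : R3 → R3) (hT₂ : Measurable T₂) (hT₃ : Measurable T₃)
    (h5 : ∀ᵐ p ∂D.μ, D.φ p + D.φ (T₂ p) + D.φ (T₃ p) ≤ coulombCost p (T₂ p) (T₃ p))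
    (hfin : ∫⁻ p, (D.φ p + D.φ (T₂ p) + D.φ (T₃ p)) ∂D.μ ≠ ∞)
    (hcon : mongeCost D.μ T₂ T₃ ≤ ∫⁻ p, (D.φ p + D.φ (T₂ p) + D.φ (T₃ p)) ∂D.μ) :
    ∀ᵐ x ∂D.μ, coulombCost x (T₂ x) (T₃ x) = D.φ x + D.φ (T₂ x) + D.φ (T₃ x) := by
  have hmeas : Measurable (fun x => coulombCost x (T₂ x) (T₃ x)) := by
    unfold coulombCost
    fun_prop
  have hae := ae_eq_of_ae_le_of_lintegral_le h5 hfin hmeas.aemeasurable hcon
  filter_upwards [hae] with x hx
  exact hx.symm

theorem mongeCost_ge (T₂ T₃ : R3 → R3) (hT₂ : Measurable T₂) (hT₃ : Measurable T₃)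
    (hμ₂ : D.μ.map T₂ = D.μ) (hμ₃ : D.μ.map T₃ = D.μ) :
    D.I + D.I + D.I < mongeCost D.μ T₂ T₃ := by
  have hid : D.μ.map (fun x => x) = D.μ := Measure.map_id'
  have h45 := D.sum_le D.μ (fun x => x) T₂ T₃ measurable_id hT₂ hT₃ hid hμ₂ hμ₃
  have h4 := h45.1
  have h5 := h45.2
  by_contra hcon
  rw [not_lt, ← h4] at hcon
  have hfin : ∫⁻ p, (D.φ p + D.φ (T₂ p) + D.φ (T₃ p)) ∂D.μ ≠ ∞ := by
    rw [h4]
    have := D.I_ne_top
    simp [this]
  exact D.no_monge_aux T₂ T₃ hT₂ hμ₂ hT₃ hμ₃ (D.no_monge_ae T₂ T₃ hT₂ hT₃ h5 hfin hcon)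

theorem no_monge (T₂ T₃ : R3 → R3) (hT : IsMongePlan D.μ T₂ T₃) :
    kantorovichValue D.μ < mongeCost D.μ T₂ T₃ := by
  rw [D.kantorovich_eq]
  exact D.mongeCost_ge T₂ T₃ hT.1 hT.2.1 hT.2.2.1 hT.2.2.2

end Data

end Vale.Agent.H13.P121
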