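import Mathlib

/-!
Local analysis for the three-marginal Coulomb problem: elementary inequalities for the
Coulomb force `z / |z|^3` in a real inner product space.
-/

open scoped RealInnerProductSpace

namespace Vale.Agent.H13.P121

variable {E : Type*} [NormedAddCommGroup E] [InnerProductSpace ℝ E]

/-- The Coulomb force field `z / |z|^3`. -/
noncomputable def N (z : E) : E := (‖z‖ ^ 3)⁻¹ • z

/-- Tangent-type inequality for the Coulomb potential. -/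
theorem coul_tangent {z w : E} (hz : z ≠ 0) (hw : w ≠ 0) :
    ‖z‖⁻¹ - ⟪N z, w - z⟫ - ‖w - z‖ ^ 2 / (2 * ‖z‖ ^ 3) ≤ ‖w‖⁻¹ := by
  have hs : 0 < ‖z‖ := norm_pos_iff.mpr hz
  have ht : 0 < ‖w‖ := norm_pos_iff.mpr hw
  have h1 : ⟪N z, w - z⟫ = (‖z‖ ^ 3)⁻¹ * (⟪z, w⟫ - ‖z‖ ^ 2) := by
    rw [N, inner_smul_left, inner_sub_right, real_inner_self_eq_norm_sq]
    simp
  have h2 : ‖w - z‖ ^ 2 = ‖w‖ ^ 2 - 2 * ⟪z, w⟫ + ‖z‖ ^ 2 := by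
    rw [norm_sub_sq_real, real_inner_comm]
  rw [h1, h2]
  set s := ‖z‖
  set t := ‖w‖
  set p := ⟪z, w⟫
  have h3 : s⁻¹ - (s ^ 3)⁻¹ * (p - s ^ 2) - (t ^ 2 - 2 * p + s ^ 2) / (2 * s ^ 3)
      = (3 * s ^ 2 - t ^ 2) / (2 * s ^ 3) := by
    field_simp
    ring
  rw [h3, div_le_iff₀ (by positivity), inv_mul_eq_div, le_div_iff₀ ht]
  nlinarith [mul_nonneg (sq_nonneg (s - t)) (by positivity : (0:ℝ) ≤ 2 * s + t)]

/-- Exact formula for the squared difference of Coulomb forces. -/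
theorem N_sub_sq {z w : E} (hz : z ≠ 0) (hw : w ≠ 0) :
    ‖N z - N w‖ ^ 2 * (‖z‖ * ‖w‖) ^ 4
      = ‖z - w‖ ^ 2 * (‖z‖ * ‖w‖) + (‖z‖ - ‖w‖) ^ 2 * (‖z‖ ^ 2 + ‖z‖ * ‖w‖ + ‖w‖ ^ 2) := by
  have hs : 0 < ‖z‖ := norm_pos_iff.mpr hz
  have ht : 0 < ‖w‖ := norm_pos_iff.mpr hw
  have h1 : ‖N z - N w‖ ^ 2 = ‖N z‖ ^ 2 - 2 * ⟪N z, N w⟫ + ‖N w‖ ^ 2 := norm_sub_sq_real _ _
  have h2 : ⟪N z, N w⟫ = (‖z‖ ^ 3)⁻¹ * ((‖w‖ ^ 3)⁻¹ * ⟪z, w⟫) := by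
    rw [N, N, inner_smul_left, inner_smul_right]; simp
  have h3 : ‖N z‖ = (‖z‖ ^ 3)⁻¹ * ‖z‖ := by
    rw [N, norm_smul]; simp
  have h4 : ‖N w‖ = (‖w‖ ^ 3)⁻¹ * ‖w‖ := by
    rw [N, norm_smul]; simp
  have h5 : ‖z - w‖ ^ 2 = ‖z‖ ^ 2 - 2 * ⟪z, w⟫ + ‖w‖ ^ 2 := norm_sub_sq_real _ _
  rw [h1, h2, h3, h4, h5]
  field_simp
  ring

/-- Lower bound for the difference of Coulomb forces. -/
theorem N_lower {z w : E} (hz : z ≠ 0) (hw : w ≠ 0) :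
    ‖z - w‖ ^ 2 ≤ ‖N z - N w‖ ^ 2 * (‖z‖ * ‖w‖) ^ 3 := by
  have hs : 0 < ‖z‖ := norm_pos_iff.mpr hz
  have ht : 0 < ‖w‖ := norm_pos_iff.mpr hw
  have h := N_sub_sq hz hw
  have hst : 0 < ‖z‖ * ‖w‖ := mul_pos hs ht
  have h6 : ‖z - w‖ ^ 2 * (‖z‖ * ‖w‖) ≤ (‖N z - N w‖ ^ 2 * (‖z‖ * ‖w‖) ^ 3) * (‖z‖ * ‖w‖) := by
    have : 0 ≤ (‖z‖ - ‖w‖) ^ 2 * (‖z‖ ^ 2 + ‖z‖ * ‖w‖ + ‖w‖ ^ 2) := by positivity
    nlinarith
  exact le_of_mul_le_mul_right h6 hst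

theorem N_lower' {z w : E} {R : ℝ} (hz : z ≠ 0) (hw : w ≠ 0) (hzR : ‖z‖ ≤ R) (hwR : ‖w‖ ≤ R) :
    ‖z - w‖ ≤ R ^ 3 * ‖N z - N w‖ := by
  have hs : 0 < ‖z‖ := norm_pos_iff.mpr hz
  have ht : 0 < ‖w‖ := norm_pos_iff.mpr hw
  have hR : 0 < R := lt_of_lt_of_le hs hzR
  have h := N_lower hz hw
  have h1 : (‖z‖ * ‖w‖) ^ 3 ≤ (R * R) ^ 3 := by
    apply pow_le_pow_left₀ (by positivity)
    exact mul_le_mul hzR hwR ht.le hR.le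
  have h2 : ‖z - w‖ ^ 2 ≤ (R ^ 3 * ‖N z - N w‖) ^ 2 := by
    calc ‖z - w‖ ^ 2 ≤ ‖N z - N w‖ ^ 2 * (‖z‖ * ‖w‖) ^ 3 := h
      _ ≤ ‖N z - N w‖ ^ 2 * (R * R) ^ 3 := by gcongr
      _ = (R ^ 3 * ‖N z - N w‖) ^ 2 := by ring
  exact le_of_sq_le_sq h2 (by positivity)

/-- Upper (Lipschitz) bound for the difference of Coulomb forces. -/
theorem N_upper {z w : E} {r : ℝ} (hr : 0 < r) (hz : r ≤ ‖z‖) (hw : r ≤ ‖w‖) :
    ‖N z - N w‖ ≤ 2 / r ^ 3 * ‖z - w‖ := by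
  have hs : 0 < ‖z‖ := lt_of_lt_of_le hr hz
  have ht : 0 < ‖w‖ := lt_of_lt_of_le hr hw
  have h := N_sub_sq (norm_pos_iff.mp hs) (norm_pos_iff.mp ht)
  have habs : (‖z‖ - ‖w‖) ^ 2 ≤ ‖z - w‖ ^ 2 := by
    have := abs_norm_sub_norm_le z w
    calc (‖z‖ - ‖w‖) ^ 2 = |‖z‖ - ‖w‖| ^ 2 := (sq_abs _).symm
      _ ≤ ‖z - w‖ ^ 2 := by gcongr
  set s := ‖z‖
  set t := ‖w‖
  set D := ‖z - w‖
  set X := ‖N z - N w‖
  -- X^2 (st)^4 ≤ D^2 (s+t)^2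
  have h1 : X ^ 2 * (s * t) ^ 4 ≤ D ^ 2 * (s + t) ^ 2 := by
    rw [h]
    have : (s - t) ^ 2 * (s ^ 2 + s * t + t ^ 2) ≤ D ^ 2 * (s ^ 2 + s * t + t ^ 2) := by
      gcongr
    nlinarith
  -- (s+t) r ≤ 2 s t
  have h2 : (s + t) * r ≤ 2 * (s * t) := by nlinarith
  have h3 : r ^ 2 ≤ s * t := by nlinarith
  have h4 : (X * (s * t) ^ 2) ≤ D * (s + t) := by
    apply le_of_sq_le_sq _ (by positivity)
    calc (X * (s * t) ^ 2) ^ 2 = X ^ 2 * (s * t) ^ 4 := by ring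
      _ ≤ D ^ 2 * (s + t) ^ 2 := h1
      _ = (D * (s + t)) ^ 2 := by ring
  have hX : 0 ≤ X := norm_nonneg _
  have hD : 0 ≤ D := norm_nonneg _
  have h5 : X * (s * t) ^ 2 * r ≤ D * (2 * (s * t)) := by
    calc X * (s * t) ^ 2 * r ≤ D * (s + t) * r := by gcongr
      _ = D * ((s + t) * r) := by ring
      _ ≤ D * (2 * (s * t)) := by gcongr
  have hst : 0 < s * t := by positivity
  have h6 : X * (s * t) * r ≤ 2 * D := by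
    have : (X * (s * t) * r) * (s * t) ≤ (2 * D) * (s * t) := by nlinarith
    exact le_of_mul_le_mul_right this hst
  have h7 : X * r ^ 3 ≤ 2 * D := by
    calc X * r ^ 3 = X * r ^ 2 * r := by ring
      _ ≤ X * (s * t) * r := by gcongr
      _ ≤ 2 * D := h6
  rw [div_mul_eq_mul_div, le_div_iff₀ (by positivity)]
  exact h7

theorem norm_N {z : E} (hz : z ≠ 0) : ‖N z‖ = (‖z‖ ^ 2)⁻¹ := by
  have hs : 0 < ‖z‖ := norm_pos_iff.mpr hz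
  rw [N, norm_smul]
  simp only [norm_inv, norm_pow, norm_norm]
  field_simp

theorem N_neg (z : E) : N (-z) = -N z := by
  simp [N]

/-- The inverse of the Coulomb force field: `v / |v|^{3/2}`. -/
noncomputable def Minv (v : E) : E := (‖v‖ * √‖v‖)⁻¹ • v

theorem norm_Minv {v : E} (hv : v ≠ 0) : ‖Minv v‖ = (√‖v‖)⁻¹ := by
  have hs : 0 < ‖v‖ := norm_pos_iff.mpr hv
  have hs' : 0 < √‖v‖ := Real.sqrt_pos.mpr hs
  rw [Minv, norm_smul, Real.norm_eq_abs, abs_of_pos (by positivity)]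
  field_simp

theorem Minv_ne_zero {v : E} (hv : v ≠ 0) : Minv v ≠ 0 := by
  have hs : 0 < ‖v‖ := norm_pos_iff.mpr hv
  have hs' : 0 < √‖v‖ := Real.sqrt_pos.mpr hs
  rw [← norm_pos_iff, norm_Minv hv]
  positivity

theorem N_Minv {v : E} (hv : v ≠ 0) : N (Minv v) = v := by
  have hs : 0 < ‖v‖ := norm_pos_iff.mpr hv
  have hs' : 0 < √‖v‖ := Real.sqrt_pos.mpr hs
  have hsq : √‖v‖ ^ 2 = ‖v‖ := Real.sq_sqrt hs.le
  rw [N, norm_Minv hv, Minv, smul_smul]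
  have : ((√‖v‖)⁻¹ ^ 3)⁻¹ * (‖v‖ * √‖v‖)⁻¹ = 1 := by
    have : ‖v‖ * √‖v‖ = √‖v‖ ^ 3 := by rw [← hsq]; simp only [Real.sqrt_sq hs'.le]; ring
    rw [this]
    field_simp
  rw [this, one_smul]

/-- Lipschitz estimate for the force away from the origin. -/
theorem N_lip {z w : E} (hz : 93 / 100 ≤ ‖z‖) (hw : 93 / 100 ≤ ‖w‖) :
    ‖N z - N w‖ ≤ 5 / 2 * ‖z - w‖ := by
  have h := N_upper (by norm_num : (0:ℝ) < 93 / 100) hz hw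
  have h2 : 2 / (93 / 100 : ℝ) ^ 3 ≤ 5 / 2 := by norm_num
  exact h.trans (mul_le_mul_of_nonneg_right h2 (norm_nonneg _))

theorem Minv_lip {v w : E} (hv : 97 / 100 ≤ ‖v‖) (hw : 97 / 100 ≤ ‖w‖) :
    ‖Minv v - Minv w‖ ≤ 107 / 100 * ‖v - w‖ := by
  have hv0 : v ≠ 0 := norm_pos_iff.mp (by linarith)
  have hw0 : w ≠ 0 := norm_pos_iff.mp (by linarith)
  have key : ∀ u : E, 97 / 100 ≤ ‖u‖ → ‖Minv u‖ ≤ 102 / 100 := by
    intro u hu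
    have hu0 : u ≠ 0 := norm_pos_iff.mp (by linarith)
    have h1 : 100 / 102 ≤ √‖u‖ := by
      apply Real.le_sqrt_of_sq_le
      refine le_trans (by norm_num) hu
    rw [norm_Minv hu0]
    have h2 : (√‖u‖)⁻¹ ≤ (100 / 102 : ℝ)⁻¹ := inv_anti₀ (by norm_num) h1
    refine h2.trans (by norm_num)
  have h := N_lower' (Minv_ne_zero hv0) (Minv_ne_zero hw0) (key v hv) (key w hw)
  rw [N_Minv hv0, N_Minv hw0] at h
  refine h.trans ?_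
  gcongr
  norm_num

/-- The critical point system, localized near the configuration `(0, e, -e)`. -/
structure Crit (e a b c : E) : Prop where
  hb : ‖b - e‖ ≤ 1 / 100
  hc : ‖c + e‖ ≤ 1 / 100
  force_a : N (a - b) + N (a - c) = (1000 : ℝ) • a
  force_c : N (c - b) + N (c - a) = (1000 : ℝ) • (c + (799 / 800 : ℝ) • e)

theorem N_unit {e : E} (he : ‖e‖ = 1) : N e = e := by simp [N, he]

theorem Minv_unit {e : E} (he : ‖e‖ = 1) : Minv e = e := by simp [Minv, he]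

theorem N_two_unit {e : E} (he : ‖e‖ = 1) : N (-e - e) = -(1 / 4 : ℝ) • e := by
  have h : -e - e = (-2 : ℝ) • e := by
    rw [show (-2 : ℝ) = -1 + -1 by norm_num, add_smul]; simp [sub_eq_add_neg]
  rw [h, N, norm_smul, he, smul_smul]
  norm_num

/-- The outer particle determined by the inner one and the opposite one. -/
noncomputable def bOf (a c : E) : E := a + Minv (N (a - c) - (1000 : ℝ) • a)

/-- The fixed-point map. -/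
noncomputable def Smap (e a c : E) : E :=
  -((799 / 800 : ℝ) • e) + (1 / 1000 : ℝ) • (N (c - bOf a c) + N (c - a))

section estimates

variable {e a : E}

theorem v_est (he : ‖e‖ = 1) (ha : ‖a‖ ≤ 1 / 10 ^ 6) {c : E} (hc : ‖c + e‖ ≤ 1 / 1000) :
    ‖(N (a - c) - (1000 : ℝ) • a) - e‖ ≤ 36 / 10000 := by
  have hac : 93 / 100 ≤ ‖a - c‖ := by
    have h1 : ‖e‖ ≤ ‖a - c‖ + ‖c + e‖ + ‖a‖ := by
      calc ‖e‖ = ‖(a - c) + (c + e) - a‖ := by congr 1; abel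
        _ ≤ ‖(a - c) + (c + e)‖ + ‖a‖ := norm_sub_le _ _
        _ ≤ ‖a - c‖ + ‖c + e‖ + ‖a‖ := by gcongr; exact norm_add_le _ _
    rw [he] at h1
    norm_num at ha hc ⊢
    linarith
  have h2 : ‖N (a - c) - N e‖ ≤ 5 / 2 * ‖a - c - e‖ := N_lip hac (by rw [he]; norm_num)
  rw [N_unit he] at h2
  have h3 : ‖a - c - e‖ ≤ ‖a‖ + ‖c + e‖ := by
    calc ‖a - c - e‖ = ‖a - (c + e)‖ := by congr 1; abel
      _ ≤ ‖a‖ + ‖c + e‖ := norm_sub_le _ _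
  have h4 : ‖(1000 : ℝ) • a‖ = 1000 * ‖a‖ := by rw [norm_smul]; norm_num
  calc ‖(N (a - c) - (1000 : ℝ) • a) - e‖ = ‖(N (a - c) - e) - (1000 : ℝ) • a‖ := by
        congr 1; abel
    _ ≤ ‖N (a - c) - e‖ + ‖(1000 : ℝ) • a‖ := norm_sub_le _ _
    _ ≤ 5 / 2 * (‖a‖ + ‖c + e‖) + 1000 * ‖a‖ := by rw [h4]; gcongr; exact h2.trans (by gcongr)
    _ ≤ 36 / 10000 := by norm_num at ha hc ⊢; linarith

theorem v_norm (he : ‖e‖ = 1) (ha : ‖a‖ ≤ 1 / 10 ^ 6) {c : E} (hc : ‖c + e‖ ≤ 1 / 1000) :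
    97 / 100 ≤ ‖N (a - c) - (1000 : ℝ) • a‖ := by
  have h := v_est he ha hc
  have h1 : ‖e‖ ≤ ‖N (a - c) - (1000 : ℝ) • a‖ + ‖(N (a - c) - (1000 : ℝ) • a) - e‖ := by
    calc ‖e‖ = ‖(N (a - c) - (1000 : ℝ) • a) - ((N (a - c) - (1000 : ℝ) • a) - e)‖ := by
          congr 1; abel
      _ ≤ _ := norm_sub_le _ _
  rw [he] at h1
  linarith

theorem bOf_est (he : ‖e‖ = 1) (ha : ‖a‖ ≤ 1 / 10 ^ 6) {c : E} (hc : ‖c + e‖ ≤ 1 / 1000) :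
    ‖bOf a c - e‖ ≤ 1 / 250 := by
  have h1 : ‖Minv (N (a - c) - (1000 : ℝ) • a) - Minv e‖
      ≤ 107 / 100 * ‖(N (a - c) - (1000 : ℝ) • a) - e‖ :=
    Minv_lip (v_norm he ha hc) (by rw [he]; norm_num)
  rw [Minv_unit he] at h1
  have h2 := v_est he ha hc
  calc ‖bOf a c - e‖ = ‖a + (Minv (N (a - c) - (1000 : ℝ) • a) - e)‖ := by
        rw [bOf]; congr 1; abel
    _ ≤ ‖a‖ + ‖Minv (N (a - c) - (1000 : ℝ) • a) - e‖ := norm_add_le _ _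
    _ ≤ ‖a‖ + 107 / 100 * (36 / 10000) := by gcongr; exact h1.trans (by gcongr)
    _ ≤ 1 / 250 := by norm_num at ha ⊢; linarith

theorem Smap_self (he : ‖e‖ = 1) (ha : ‖a‖ ≤ 1 / 10 ^ 6) {c : E} (hc : ‖c + e‖ ≤ 1 / 1000) :
    ‖Smap e a c + e‖ ≤ 1 / 1000 := by
  have hb := bOf_est he ha hc
  set b := bOf a c with hbdef
  have hee : ‖-e - e‖ = 2 := by
    have h : -e - e = (-2 : ℝ) • e := by
      rw [show (-2 : ℝ) = -1 + -1 by norm_num, add_smul]; simp [sub_eq_add_neg]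
    rw [h, norm_smul, he]; norm_num
  have hcb' : ‖(c - b) - (-e - e)‖ ≤ ‖c + e‖ + ‖b - e‖ := by
    calc ‖(c - b) - (-e - e)‖ = ‖(c + e) - (b - e)‖ := by congr 1; abel
      _ ≤ _ := norm_sub_le _ _
  have hca' : ‖(c - a) - (-e)‖ ≤ ‖c + e‖ + ‖a‖ := by
    calc ‖(c - a) - (-e)‖ = ‖(c + e) - a‖ := by congr 1; abel
      _ ≤ _ := norm_sub_le _ _
  have hcb : 93 / 100 ≤ ‖c - b‖ := by
    have h1 : ‖-e - e‖ ≤ ‖c - b‖ + ‖(c - b) - (-e - e)‖ := by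
      calc ‖-e - e‖ = ‖(c - b) - ((c - b) - (-e - e))‖ := by congr 1; abel
        _ ≤ _ := norm_sub_le _ _
    rw [hee] at h1
    linarith
  have hca : 93 / 100 ≤ ‖c - a‖ := by
    have h1 : ‖-e‖ ≤ ‖c - a‖ + ‖(c - a) - (-e)‖ := by
      calc ‖-e‖ = ‖(c - a) - ((c - a) - (-e))‖ := by congr 1; abel
        _ ≤ _ := norm_sub_le _ _
    rw [norm_neg, he] at h1
    norm_num at ha
    linarith
  have h1 : ‖N (c - b) - N (-e - e)‖ ≤ 5 / 2 * ‖(c - b) - (-e - e)‖ :=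
    N_lip hcb (by rw [hee]; norm_num)
  have h2 : ‖N (c - a) - N (-e)‖ ≤ 5 / 2 * ‖(c - a) - (-e)‖ :=
    N_lip hca (by rw [norm_neg, he]; norm_num)
  have h3 : Smap e a c + e
      = (1 / 1000 : ℝ) • ((N (c - b) - N (-e - e)) + (N (c - a) - N (-e))) := by
    rw [Smap, N_two_unit he, N_neg, N_unit he]
    rw [← hbdef]
    module
  rw [h3, norm_smul]
  have h4 : ‖(N (c - b) - N (-e - e)) + (N (c - a) - N (-e))‖
      ≤ 5 / 2 * (‖c + e‖ + ‖b - e‖) + 5 / 2 * (‖c + e‖ + ‖a‖) := by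
    refine (norm_add_le _ _).trans ?_
    gcongr
    · exact h1.trans (by gcongr)
    · exact h2.trans (by gcongr)
  have h5 : ‖(1 / 1000 : ℝ)‖ = 1 / 1000 := by norm_num
  rw [h5]
  norm_num at ha hc hb ⊢
  linarith

theorem Smap_contract (he : ‖e‖ = 1) (ha : ‖a‖ ≤ 1 / 10 ^ 6) {c c' : E}
    (hc : ‖c + e‖ ≤ 1 / 1000) (hc' : ‖c' + e‖ ≤ 1 / 1000) :
    ‖Smap e a c - Smap e a c'‖ ≤ 1 / 2 * ‖c - c'‖ := by
  have hee : ‖-e - e‖ = 2 := by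
    have h : -e - e = (-2 : ℝ) • e := by
      rw [show (-2 : ℝ) = -1 + -1 by norm_num, add_smul]; simp [sub_eq_add_neg]
    rw [h, norm_smul, he]; norm_num
  have hac : ∀ c : E, ‖c + e‖ ≤ 1 / 1000 → 93 / 100 ≤ ‖a - c‖ := by
    intro c hc
    have h1 : ‖e‖ ≤ ‖a - c‖ + ‖c + e‖ + ‖a‖ := by
      calc ‖e‖ = ‖(a - c) + (c + e) - a‖ := by congr 1; abel
        _ ≤ ‖(a - c) + (c + e)‖ + ‖a‖ := norm_sub_le _ _
        _ ≤ ‖a - c‖ + ‖c + e‖ + ‖a‖ := by gcongr; exact norm_add_le _ _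
    rw [he] at h1
    norm_num at ha hc ⊢
    linarith
  have hcb : ∀ c : E, ‖c + e‖ ≤ 1 / 1000 → 93 / 100 ≤ ‖c - bOf a c‖ := by
    intro c hc
    have hb := bOf_est he ha hc
    have h0 : ‖(c - bOf a c) - (-e - e)‖ ≤ ‖c + e‖ + ‖bOf a c - e‖ := by
      calc ‖(c - bOf a c) - (-e - e)‖ = ‖(c + e) - (bOf a c - e)‖ := by congr 1; abel
        _ ≤ _ := norm_sub_le _ _
    have h1 : ‖-e - e‖ ≤ ‖c - bOf a c‖ + ‖(c - bOf a c) - (-e - e)‖ := by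
      calc ‖-e - e‖ = ‖(c - bOf a c) - ((c - bOf a c) - (-e - e))‖ := by congr 1; abel
        _ ≤ _ := norm_sub_le _ _
    rw [hee] at h1
    linarith
  have h1 : ‖N (a - c) - N (a - c')‖ ≤ 5 / 2 * ‖c - c'‖ := by
    have := N_lip (hac c hc) (hac c' hc')
    rwa [show (a - c) - (a - c') = -(c - c') by abel, norm_neg] at this
  have h2 : ‖bOf a c - bOf a c'‖ ≤ 107 / 100 * (5 / 2 * ‖c - c'‖) := by
    have := Minv_lip (v_norm he ha hc) (v_norm he ha hc')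
    rw [show (N (a - c) - (1000:ℝ) • a) - (N (a - c') - (1000:ℝ) • a)
      = N (a - c) - N (a - c') by abel] at this
    calc ‖bOf a c - bOf a c'‖ = ‖Minv (N (a - c) - (1000 : ℝ) • a)
          - Minv (N (a - c') - (1000 : ℝ) • a)‖ := by rw [bOf, bOf]; congr 1; abel
      _ ≤ 107 / 100 * ‖N (a - c) - N (a - c')‖ := this
      _ ≤ _ := by gcongr
  have h3 : ‖N (c - bOf a c) - N (c' - bOf a c')‖
      ≤ 5 / 2 * (‖c - c'‖ + ‖bOf a c - bOf a c'‖) := by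
    refine (N_lip (hcb c hc) (hcb c' hc')).trans ?_
    gcongr
    calc ‖(c - bOf a c) - (c' - bOf a c')‖ = ‖(c - c') - (bOf a c - bOf a c')‖ := by
          congr 1; abel
      _ ≤ _ := norm_sub_le _ _
  have h4 : ‖N (c - a) - N (c' - a)‖ ≤ 5 / 2 * ‖c - c'‖ := by
    have h5 := N_lip (z := c - a) (w := c' - a) (by rw [norm_sub_rev]; exact hac c hc)
      (by rw [norm_sub_rev]; exact hac c' hc')
    rwa [show (c - a) - (c' - a) = c - c' by abel] at h5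
  have h5 : Smap e a c - Smap e a c' = (1 / 1000 : ℝ) • ((N (c - bOf a c) - N (c' - bOf a c'))
      + (N (c - a) - N (c' - a))) := by
    rw [Smap, Smap]; module
  rw [h5, norm_smul, show ‖(1 / 1000 : ℝ)‖ = 1 / 1000 by norm_num]
  have h6 := norm_add_le (N (c - bOf a c) - N (c' - bOf a c')) (N (c - a) - N (c' - a))
  have h7 := norm_nonneg (c - c')
  linarith

end estimates

/-- Existence of critical configurations. -/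
theorem exists_crit [CompleteSpace E] {e a : E} (he : ‖e‖ = 1) (ha : ‖a‖ ≤ 1 / 10 ^ 6) :
    ∃ b c : E, Crit e a b c := by
  have hmaps : Set.MapsTo (Smap e a) (Metric.closedBall (-e) (1 / 1000))
      (Metric.closedBall (-e) (1 / 1000)) := by
    intro c hc
    rw [mem_closedBall_iff_norm, sub_neg_eq_add] at hc ⊢
    exact Smap_self he ha hc
  have hcontr : ContractingWith (1 / 2) (hmaps.restrict (Smap e a) _ _) := by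
    refine ⟨by rw [← NNReal.coe_lt_coe]; norm_num, ?_⟩
    apply LipschitzWith.of_dist_le_mul
    rintro ⟨c, hc⟩ ⟨c', hc'⟩
    rw [mem_closedBall_iff_norm, sub_neg_eq_add] at hc hc'
    rw [Subtype.dist_eq, Subtype.dist_eq, dist_eq_norm, dist_eq_norm]
    have := Smap_contract he ha hc hc'
    simpa using this
  have hmem : (-e) ∈ Metric.closedBall (-e) (1 / 1000 : ℝ) := by simp
  obtain ⟨c, hc, hfix, -⟩ := ContractingWith.exists_fixedPoint'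
    (Metric.isClosed_closedBall.isComplete) hmaps hcontr hmem (edist_ne_top _ _)
  rw [mem_closedBall_iff_norm, sub_neg_eq_add] at hc
  have hfix' : Smap e a c = c := hfix
  refine ⟨bOf a c, c, ?_, ?_, ?_, ?_⟩
  · exact (bOf_est he ha hc).trans (by norm_num)
  · exact hc.trans (by norm_num)
  · have hv : N (a - c) - (1000 : ℝ) • a ≠ 0 := by
      rw [← norm_pos_iff]; linarith [v_norm he ha hc]
    have : a - bOf a c = -Minv (N (a - c) - (1000 : ℝ) • a) := by rw [bOf]; abel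
    rw [this, N_neg, N_Minv hv]
    abel
  · have h1 : c + (799 / 800 : ℝ) • e = (1 / 1000 : ℝ) • (N (c - bOf a c) + N (c - a)) := by
      nth_rewrite 1 [← hfix']
      rw [Smap]
      abel
    rw [h1, smul_smul]
    norm_num

/-- The confined Coulomb energy. -/
noncomputable def energy (e a b c : E) : ℝ :=
  ‖a - b‖⁻¹ + ‖a - c‖⁻¹ + ‖b - c‖⁻¹ + 500 * ‖a‖ ^ 2 + 500 * ‖c + (799 / 800 : ℝ) • e‖ ^ 2

section geometry

variable {e a b c : E}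

theorem norm_ab (he : ‖e‖ = 1) (ha : ‖a‖ ≤ 1 / 100) (hb : ‖b - e‖ ≤ 1 / 100) :
    98 / 100 ≤ ‖a - b‖ := by
  have h1 : ‖e‖ ≤ ‖a‖ + ‖a - b‖ + ‖b - e‖ := by
    calc ‖e‖ = ‖(a - (a - b)) - (b - e)‖ := by congr 1; abel
      _ ≤ ‖a - (a - b)‖ + ‖b - e‖ := norm_sub_le _ _
      _ ≤ ‖a‖ + ‖a - b‖ + ‖b - e‖ := by gcongr; exact norm_sub_le _ _
  rw [he] at h1
  linarith

theorem norm_ac (he : ‖e‖ = 1) (ha : ‖a‖ ≤ 1 / 100) (hc : ‖c + e‖ ≤ 1 / 100) :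
    98 / 100 ≤ ‖a - c‖ := by
  have := norm_ab (e := -e) (a := a) (b := c) (by rw [norm_neg, he]) ha
    (by rwa [sub_neg_eq_add])
  exact this

theorem norm_bc (he : ‖e‖ = 1) (hb : ‖b - e‖ ≤ 1 / 100) (hc : ‖c + e‖ ≤ 1 / 100) :
    198 / 100 ≤ ‖b - c‖ := by
  have h0 : ‖e + e‖ = 2 := by
    rw [← two_smul ℝ e, norm_smul, he]; norm_num
  have h1 : ‖e + e‖ ≤ ‖b - c‖ + ‖b - e‖ + ‖c + e‖ := by
    calc ‖e + e‖ = ‖((b - c) - (b - e)) + (c + e)‖ := by congr 1; abel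
      _ ≤ ‖(b - c) - (b - e)‖ + ‖c + e‖ := norm_add_le _ _
      _ ≤ ‖b - c‖ + ‖b - e‖ + ‖c + e‖ := by gcongr; exact norm_sub_le _ _
  rw [h0] at h1
  linarith

theorem norm_bc_le (he : ‖e‖ = 1) (hb : ‖b - e‖ ≤ 1 / 100) (hc : ‖c + e‖ ≤ 1 / 100) :
    ‖b - c‖ ≤ 202 / 100 := by
  have h0 : ‖e + e‖ = 2 := by
    rw [← two_smul ℝ e, norm_smul, he]; norm_num
  have h1 : ‖b - c‖ ≤ ‖b - e‖ + ‖e + e‖ + ‖c + e‖ := by
    calc ‖b - c‖ = ‖((b - e) + (e + e)) - (c + e)‖ := by congr 1; abel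
      _ ≤ ‖(b - e) + (e + e)‖ + ‖c + e‖ := norm_sub_le _ _
      _ ≤ ‖b - e‖ + ‖e + e‖ + ‖c + e‖ := by gcongr; exact norm_add_le _ _
  rw [h0] at h1
  linarith

theorem norm_ab_le (he : ‖e‖ = 1) (ha : ‖a‖ ≤ 1 / 100) (hb : ‖b - e‖ ≤ 1 / 100) :
    ‖a - b‖ ≤ 102 / 100 := by
  have h1 : ‖a - b‖ ≤ ‖a‖ + ‖b - e‖ + ‖e‖ := by
    calc ‖a - b‖ = ‖(a - (b - e)) - e‖ := by congr 1; abel
      _ ≤ ‖a - (b - e)‖ + ‖e‖ := norm_sub_le _ _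
      _ ≤ ‖a‖ + ‖b - e‖ + ‖e‖ := by gcongr; exact norm_sub_le _ _
  rw [he] at h1
  linarith

theorem tangent' {z w : E} (hz : 93 / 100 ≤ ‖z‖) (hw : 93 / 100 ≤ ‖w‖) :
    ‖z‖⁻¹ - ⟪N z, w - z⟫ - ‖w - z‖ ^ 2 ≤ ‖w‖⁻¹ := by
  have h := coul_tangent (z := z) (w := w) (norm_pos_iff.mp (by linarith))
    (norm_pos_iff.mp (by linarith))
  refine le_trans ?_ h
  have h1 : (1:ℝ) ≤ 2 * ‖z‖ ^ 3 := by
    have : (93 / 100 : ℝ) ^ 3 ≤ ‖z‖ ^ 3 := by gcongr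
    norm_num at this ⊢
    linarith
  have h2 : ‖w - z‖ ^ 2 / (2 * ‖z‖ ^ 3) ≤ ‖w - z‖ ^ 2 := div_le_self (by positivity) h1
  linarith

/-- The contact inequality: critical configurations are strict minimizers. -/
theorem contact (he : ‖e‖ = 1) (ha : ‖a‖ ≤ 1 / 100) (h : Crit e a b c) {a' c' : E}
    (ha' : ‖a'‖ ≤ 1 / 100) (hc' : ‖c' + e‖ ≤ 1 / 100) :
    energy e a b c + 400 * (‖a' - a‖ ^ 2 + ‖c' - c‖ ^ 2) ≤ energy e a' b c' := by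
  have t1 := tangent' (z := a - b) (w := a' - b) (by linarith [norm_ab he ha h.hb])
    (by linarith [norm_ab he ha' h.hb])
  have t2 := tangent' (z := c - b) (w := c' - b)
    (by rw [norm_sub_rev]; linarith [norm_bc he h.hb h.hc])
    (by rw [norm_sub_rev]; linarith [norm_bc he h.hb hc'])
  have t3 := tangent' (z := a - c) (w := a' - c') (by linarith [norm_ac he ha h.hc])
    (by linarith [norm_ac he ha' hc'])
  rw [show (a' - b) - (a - b) = a' - a by abel] at t1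
  rw [show (c' - b) - (c - b) = c' - c by abel] at t2
  rw [show (a' - c') - (a - c) = (a' - a) - (c' - c) by abel] at t3
  set u := a' - a with hu
  set v := c' - c with hv
  have i3 : ⟪N (a - c), u - v⟫ = ⟪N (a - c), u⟫ - ⟪N (a - c), v⟫ := inner_sub_right _ _ _
  have i4 : ⟪N (a - b), u⟫ + ⟪N (a - c), u⟫ = 1000 * ⟪a, u⟫ := by
    rw [← inner_add_left, h.force_a, inner_smul_left]; simp
  have i5 : N (a - c) = -N (c - a) := by rw [← N_neg]; congr 1; abel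
  have i6 : ⟪N (c - b), v⟫ - ⟪N (a - c), v⟫ = 1000 * ⟪c + (799 / 800 : ℝ) • e, v⟫ := by
    rw [i5, inner_neg_left, sub_neg_eq_add, ← inner_add_left, h.force_c, inner_smul_left]; simp
  have q1 : ‖a'‖ ^ 2 = ‖a‖ ^ 2 + 2 * ⟪a, u⟫ + ‖u‖ ^ 2 := by
    rw [← norm_add_sq_real]; congr 2; rw [hu]; abel
  have q2 : ‖c' + (799 / 800 : ℝ) • e‖ ^ 2
      = ‖c + (799 / 800 : ℝ) • e‖ ^ 2 + 2 * ⟪c + (799 / 800 : ℝ) • e, v⟫ + ‖v‖ ^ 2 := by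
    rw [← norm_add_sq_real]; congr 2; rw [hv]; abel
  have q3 : ‖u - v‖ ^ 2 ≤ 2 * (‖u‖ ^ 2 + ‖v‖ ^ 2) := by
    have := norm_sub_le u v
    have h1 : ‖u - v‖ ^ 2 ≤ (‖u‖ + ‖v‖) ^ 2 := by gcongr
    nlinarith [sq_nonneg (‖u‖ - ‖v‖)]
  rw [energy, energy, q1, q2, norm_sub_rev b c, norm_sub_rev b c']
  have := sq_nonneg ‖u‖
  have := sq_nonneg ‖v‖
  linarith

/-- Comparison of two critical configurations. -/
theorem crit_compare (he : ‖e‖ = 1) {a₁ b₁ c₁ a₂ b₂ c₂ : E} (ha₁ : ‖a₁‖ ≤ 1 / 100)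
    (ha₂ : ‖a₂‖ ≤ 1 / 100) (h₁ : Crit e a₁ b₁ c₁) (h₂ : Crit e a₂ b₂ c₂) :
    ‖a₁ - a₂‖ ≤ ‖b₁ - b₂‖ ∧ ‖a₁ - a₂‖ ≤ 100 * ‖c₁ - c₂‖ ∧ ‖b₁ - b₂‖ ≤ 2000 * ‖a₁ - a₂‖ ∧
      ‖c₁ - c₂‖ ≤ 2000 * ‖a₁ - a₂‖ := by
  have n1 := N_lip (z := a₁ - b₁) (w := a₂ - b₂) (by linarith [norm_ab he ha₁ h₁.hb])
    (by linarith [norm_ab he ha₂ h₂.hb])
  have n2 := N_lip (z := a₁ - c₁) (w := a₂ - c₂) (by linarith [norm_ac he ha₁ h₁.hc])
    (by linarith [norm_ac he ha₂ h₂.hc])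
  have n3 := N_lip (z := c₁ - b₁) (w := c₂ - b₂)
    (by rw [norm_sub_rev]; linarith [norm_bc he h₁.hb h₁.hc])
    (by rw [norm_sub_rev]; linarith [norm_bc he h₂.hb h₂.hc])
  have n4 := N_lip (z := c₁ - a₁) (w := c₂ - a₂)
    (by rw [norm_sub_rev]; linarith [norm_ac he ha₁ h₁.hc])
    (by rw [norm_sub_rev]; linarith [norm_ac he ha₂ h₂.hc])
  have m1 := N_lower' (z := a₁ - b₁) (w := a₂ - b₂) (R := 102 / 100)
    (norm_pos_iff.mp (by linarith [norm_ab he ha₁ h₁.hb]))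
    (norm_pos_iff.mp (by linarith [norm_ab he ha₂ h₂.hb]))
    (norm_ab_le he ha₁ h₁.hb) (norm_ab_le he ha₂ h₂.hb)
  have m3 := N_lower' (z := c₁ - b₁) (w := c₂ - b₂) (R := 202 / 100)
    (norm_pos_iff.mp (by rw [norm_sub_rev]; linarith [norm_bc he h₁.hb h₁.hc]))
    (norm_pos_iff.mp (by rw [norm_sub_rev]; linarith [norm_bc he h₂.hb h₂.hc]))
    (by rw [norm_sub_rev]; exact norm_bc_le he h₁.hb h₁.hc)
    (by rw [norm_sub_rev]; exact norm_bc_le he h₂.hb h₂.hc)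
  have fa : (1000 : ℝ) • (a₁ - a₂)
      = (N (a₁ - b₁) - N (a₂ - b₂)) + (N (a₁ - c₁) - N (a₂ - c₂)) := by
    rw [smul_sub, ← h₁.force_a, ← h₂.force_a]; abel
  have fc : (1000 : ℝ) • (c₁ - c₂)
      = (N (c₁ - b₁) - N (c₂ - b₂)) + (N (c₁ - a₁) - N (c₂ - a₂)) := by
    have : (1000 : ℝ) • (c₁ - c₂) = (1000 : ℝ) • (c₁ + (799 / 800 : ℝ) • e)
      - (1000 : ℝ) • (c₂ + (799 / 800 : ℝ) • e) := by module
    rw [this, ← h₁.force_c, ← h₂.force_c]; abel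
  have ga : 1000 * ‖a₁ - a₂‖ ≤ ‖N (a₁ - b₁) - N (a₂ - b₂)‖ + ‖N (a₁ - c₁) - N (a₂ - c₂)‖ := by
    calc 1000 * ‖a₁ - a₂‖ = ‖(1000 : ℝ) • (a₁ - a₂)‖ := by rw [norm_smul]; norm_num
      _ ≤ _ := by rw [fa]; exact norm_add_le _ _
  have gc : 1000 * ‖c₁ - c₂‖ ≤ ‖N (c₁ - b₁) - N (c₂ - b₂)‖ + ‖N (c₁ - a₁) - N (c₂ - a₂)‖ := by
    calc 1000 * ‖c₁ - c₂‖ = ‖(1000 : ℝ) • (c₁ - c₂)‖ := by rw [norm_smul]; norm_num
      _ ≤ _ := by rw [fc]; exact norm_add_le _ _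
  have ka : ‖N (a₁ - b₁) - N (a₂ - b₂)‖ ≤ 1000 * ‖a₁ - a₂‖ + ‖N (a₁ - c₁) - N (a₂ - c₂)‖ := by
    calc ‖N (a₁ - b₁) - N (a₂ - b₂)‖
        = ‖(1000 : ℝ) • (a₁ - a₂) - (N (a₁ - c₁) - N (a₂ - c₂))‖ := by rw [fa]; congr 1; abel
      _ ≤ ‖(1000 : ℝ) • (a₁ - a₂)‖ + _ := norm_sub_le _ _
      _ = _ := by rw [norm_smul]; norm_num
  have kc : ‖N (c₁ - b₁) - N (c₂ - b₂)‖ ≤ 1000 * ‖c₁ - c₂‖ + ‖N (c₁ - a₁) - N (c₂ - a₂)‖ := by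
    calc ‖N (c₁ - b₁) - N (c₂ - b₂)‖
        = ‖(1000 : ℝ) • (c₁ - c₂) - (N (c₁ - a₁) - N (c₂ - a₂))‖ := by rw [fc]; congr 1; abel
      _ ≤ ‖(1000 : ℝ) • (c₁ - c₂)‖ + _ := norm_sub_le _ _
      _ = _ := by rw [norm_smul]; norm_num
  have dab : ‖(a₁ - b₁) - (a₂ - b₂)‖ ≤ ‖a₁ - a₂‖ + ‖b₁ - b₂‖ := by
    rw [show (a₁ - b₁) - (a₂ - b₂) = (a₁ - a₂) - (b₁ - b₂) by abel]; exact norm_sub_le _ _
  have dac : ‖(a₁ - c₁) - (a₂ - c₂)‖ ≤ ‖a₁ - a₂‖ + ‖c₁ - c₂‖ := by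
    rw [show (a₁ - c₁) - (a₂ - c₂) = (a₁ - a₂) - (c₁ - c₂) by abel]; exact norm_sub_le _ _
  have dcb : ‖(c₁ - b₁) - (c₂ - b₂)‖ ≤ ‖c₁ - c₂‖ + ‖b₁ - b₂‖ := by
    rw [show (c₁ - b₁) - (c₂ - b₂) = (c₁ - c₂) - (b₁ - b₂) by abel]; exact norm_sub_le _ _
  have dca : ‖(c₁ - a₁) - (c₂ - a₂)‖ ≤ ‖c₁ - c₂‖ + ‖a₁ - a₂‖ := by
    rw [show (c₁ - a₁) - (c₂ - a₂) = (c₁ - c₂) - (a₁ - a₂) by abel]; exact norm_sub_le _ _
  have eab : ‖b₁ - b₂‖ ≤ ‖a₁ - a₂‖ + ‖(a₁ - b₁) - (a₂ - b₂)‖ := by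
    calc ‖b₁ - b₂‖ = ‖(a₁ - a₂) - ((a₁ - b₁) - (a₂ - b₂))‖ := by congr 1; abel
      _ ≤ _ := norm_sub_le _ _
  have ecb : ‖b₁ - b₂‖ ≤ ‖c₁ - c₂‖ + ‖(c₁ - b₁) - (c₂ - b₂)‖ := by
    calc ‖b₁ - b₂‖ = ‖(c₁ - c₂) - ((c₁ - b₁) - (c₂ - b₂))‖ := by congr 1; abel
      _ ≤ _ := norm_sub_le _ _
  have pa := norm_nonneg (a₁ - a₂)
  have pb := norm_nonneg (b₁ - b₂)
  have pc := norm_nonneg (c₁ - c₂)
  norm_num at m1 m3
  refine ⟨?_, ?_, ?_, ?_⟩ <;> linarith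

end geometry

end Vale.Agent.H13.P121
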