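import Mathlib
import Vale.Agent.H13.P121.Local
import Vale.Agent.H13.P121.Abstract

/-!
Construction of the counterexample data.
-/

open MeasureTheory
open scoped ENNReal RealInnerProductSpace

namespace Vale.Agent.H13.P121

/-- A map with Lipschitz inverse on `s` transports Lebesgue measure on `s` to an absolutely
continuous measure. -/
theorem map_ac {f : R3 → R3} (hf : Measurable f) {s : Set R3}
    {C : NNReal} (h : ∀ x ∈ s, ∀ y ∈ s, ‖x - y‖ ≤ C * ‖f x - f y‖) :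
    (volume.restrict s).map f ≪ volume := by
  have hac : (volume : Measure R3) ≪ μH[Module.finrank ℝ R3] :=
    Measure.absolutelyContinuous_isAddHaarMeasure _ _
  have hac' : μH[Module.finrank ℝ R3] ≪ (volume : Measure R3) :=
    Measure.absolutelyContinuous_isAddHaarMeasure _ _
  refine Measure.AbsolutelyContinuous.mk fun t ht ht0 => ?_
  rw [Measure.map_apply hf ht, Measure.restrict_apply (hf ht)]
  apply hac
  have hanti : AntilipschitzWith C (fun x : s => f x) := by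
    apply AntilipschitzWith.of_le_mul_dist
    rintro ⟨x, hx⟩ ⟨y, hy⟩
    rw [Subtype.dist_eq, dist_eq_norm, dist_eq_norm]
    exact h x hx y hy
  have h1 := hanti.hausdorffMeasure_preimage_le (d := (Module.finrank ℝ R3 : ℝ)) (by positivity) t
  rw [hac' ht0, mul_zero, nonpos_iff_eq_zero] at h1
  have h2 : f ⁻¹' t ∩ s = Subtype.val '' ((fun x : s => f x) ⁻¹' t) := by
    ext x
    constructor
    · rintro ⟨hx, hxs⟩
      exact ⟨⟨x, hxs⟩, hx, rfl⟩
    · rintro ⟨⟨y, hy⟩, hyt, rfl⟩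
      exact ⟨hyt, hy⟩
  rw [h2, isometry_subtype_coe.hausdorffMeasure_image (Or.inl (by positivity)), h1]

/-- First basis vector. -/
noncomputable def e1 : R3 := EuclideanSpace.single 0 1
/-- Second basis vector. -/
noncomputable def e2 : R3 := EuclideanSpace.single 1 1

theorem norm_e1 : ‖e1‖ = 1 := by simp [e1]
theorem norm_e2 : ‖e2‖ = 1 := by simp [e2]
theorem inner_e1_e2 : ⟪e1, e2⟫ = 0 := by
  simp [e1, e2, EuclideanSpace.inner_single_left]

/-- The swap of the first two coordinates. -/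
noncomputable def R : R3 ≃ₗᵢ[ℝ] R3 :=
  LinearIsometryEquiv.piLpCongrLeft 2 ℝ ℝ (Equiv.swap (0 : Fin 3) 1)

theorem R_e1 : R e1 = e2 := by
  rw [R, e1, LinearIsometryEquiv.piLpCongrLeft_single]; simp [e2]

theorem R_R (x : R3) : R (R x) = x := by
  ext i
  simp [R]

/-- The small ball around the origin. -/
def A0 : Set R3 := Metric.closedBall 0 (1 / 10 ^ 6)

theorem mem_A0 {x : R3} : x ∈ A0 ↔ ‖x‖ ≤ 1 / 10 ^ 6 := by
  rw [A0, mem_closedBall_iff_norm, sub_zero]

theorem A0_small {x : R3} (h : x ∈ A0) : ‖x‖ ≤ 1 / 100 :=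
  (mem_A0.mp h).trans (by norm_num)

theorem R_mem {x : R3} (h : x ∈ A0) : R x ∈ A0 := by
  rw [mem_A0] at h ⊢; rwa [R.norm_map]

theorem crit_exists (a : R3) : ∃ p : R3 × R3, a ∈ A0 → Crit e1 a p.1 p.2 := by
  by_cases h : a ∈ A0
  · obtain ⟨b, c, hbc⟩ := exists_crit norm_e1 (mem_A0.mp h)
    exact ⟨(b, c), fun _ => hbc⟩
  · exact ⟨(0, 0), fun h' => absurd h' h⟩

open Classical in
/-- The partner near `e1`. -/
noncomputable def bF (a : R3) : R3 := if a ∈ A0 then (crit_exists a).choose.1 else 0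

open Classical in
/-- The partner near `-e1`. -/
noncomputable def cF (a : R3) : R3 := if a ∈ A0 then (crit_exists a).choose.2 else 0

theorem crit_F {a : R3} (h : a ∈ A0) : Crit e1 a (bF a) (cF a) := by
  rw [bF, cF, if_pos h, if_pos h]
  exact (crit_exists a).choose_spec h

theorem lip_b {x y : R3} (hx : x ∈ A0) (hy : y ∈ A0) : ‖bF x - bF y‖ ≤ 2000 * ‖x - y‖ :=
  (crit_compare norm_e1 (A0_small hx) (A0_small hy) (crit_F hx) (crit_F hy)).2.2.1

theorem lip_c {x y : R3} (hx : x ∈ A0) (hy : y ∈ A0) : ‖cF x - cF y‖ ≤ 2000 * ‖x - y‖ :=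
  (crit_compare norm_e1 (A0_small hx) (A0_small hy) (crit_F hx) (crit_F hy)).2.2.2

theorem anti_b {x y : R3} (hx : x ∈ A0) (hy : y ∈ A0) : ‖x - y‖ ≤ ‖bF x - bF y‖ :=
  (crit_compare norm_e1 (A0_small hx) (A0_small hy) (crit_F hx) (crit_F hy)).1

theorem anti_c {x y : R3} (hx : x ∈ A0) (hy : y ∈ A0) : ‖x - y‖ ≤ 100 * ‖cF x - cF y‖ :=
  (crit_compare norm_e1 (A0_small hx) (A0_small hy) (crit_F hx) (crit_F hy)).2.1

theorem contOn_b : ContinuousOn bF A0 := by
  have : LipschitzOnWith 2000 bF A0 := by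
    apply LipschitzOnWith.of_dist_le_mul
    intro x hx y hy
    rw [dist_eq_norm, dist_eq_norm]
    exact_mod_cast lip_b hx hy
  exact this.continuousOn

theorem contOn_c : ContinuousOn cF A0 := by
  have : LipschitzOnWith 2000 cF A0 := by
    apply LipschitzOnWith.of_dist_le_mul
    intro x hx y hy
    rw [dist_eq_norm, dist_eq_norm]
    exact_mod_cast lip_c hx hy
  exact this.continuousOn

theorem meas_A0 : MeasurableSet A0 := Metric.isClosed_closedBall.measurableSet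

open Classical in
theorem meas_b : Measurable bF := by
  have h := ContinuousOn.measurable_piecewise (f := bF) (g := fun _ => (0 : R3)) contOn_b
    continuousOn_const meas_A0
  have h2 : A0.piecewise bF (fun _ => (0 : R3)) = bF := by
    ext1 x
    by_cases hx : x ∈ A0
    · simp [hx]
    · simp [hx, bF]
  rwa [h2] at h

open Classical in
theorem meas_c : Measurable cF := by
  have h := ContinuousOn.measurable_piecewise (f := cF) (g := fun _ => (0 : R3)) contOn_c
    continuousOn_const meas_A0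
  have h2 : A0.piecewise cF (fun _ => (0 : R3)) = cF := by
    ext1 x
    by_cases hx : x ∈ A0
    · simp [hx]
    · simp [hx, cF]
  rwa [h2] at h

/-- The four partner maps. -/
noncomputable def F : Fin 4 → R3 → R3 :=
  ![bF, cF, fun x => R (bF (R x)), fun x => R (cF (R x))]

/-- The four centres. -/
noncomputable def ctr : Fin 4 → R3 := ![e1, -e1, e2, -e2]

theorem F0 (x : R3) : F 0 x = bF x := rfl
theorem F1 (x : R3) : F 1 x = cF x := rfl
theorem F2 (x : R3) : F 2 x = R (bF (R x)) := rfl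
theorem F3 (x : R3) : F 3 x = R (cF (R x)) := rfl

theorem F_meas (i : Fin 4) : Measurable (F i) := by
  have hR : Measurable R := R.continuous.measurable
  fin_cases i
  · exact meas_b
  · exact meas_c
  · exact hR.comp (meas_b.comp hR)
  · exact hR.comp (meas_c.comp hR)

theorem F_anti (i : Fin 4) {x y : R3} (hx : x ∈ A0) (hy : y ∈ A0) :
    ‖x - y‖ ≤ 100 * ‖F i x - F i y‖ := by
  have hR : ∀ u v : R3, ‖R u - R v‖ = ‖u - v‖ := fun u v => by
    rw [← map_sub, R.norm_map]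
  fin_cases i
  · show ‖x - y‖ ≤ 100 * ‖bF x - bF y‖
    have := anti_b hx hy
    have := norm_nonneg (bF x - bF y)
    linarith
  · exact anti_c hx hy
  · show ‖x - y‖ ≤ 100 * ‖R (bF (R x)) - R (bF (R y))‖
    rw [hR, ← hR x y]
    have := anti_b (R_mem hx) (R_mem hy)
    have := norm_nonneg (bF (R x) - bF (R y))
    linarith
  · show ‖x - y‖ ≤ 100 * ‖R (cF (R x)) - R (cF (R y))‖
    rw [hR, ← hR x y]
    exact anti_c (R_mem hx) (R_mem hy)

theorem F_inj (i : Fin 4) : Set.InjOn (F i) A0 := by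
  intro x hx y hy hxy
  have := F_anti i hx hy
  rw [hxy, sub_self, norm_zero, mul_zero] at this
  exact sub_eq_zero.mp (norm_le_zero_iff.mp this)

theorem F_ctr (i : Fin 4) {x : R3} (hx : x ∈ A0) : ‖F i x - ctr i‖ ≤ 1 / 100 := by
  fin_cases i
  · exact (crit_F hx).hb
  · show ‖cF x - -e1‖ ≤ 1 / 100
    rw [sub_neg_eq_add]
    exact (crit_F hx).hc
  · show ‖R (bF (R x)) - e2‖ ≤ 1 / 100
    rw [← R_e1, ← map_sub, R.norm_map]
    exact (crit_F (R_mem hx)).hb
  · show ‖R (cF (R x)) - -e2‖ ≤ 1 / 100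
    rw [← R_e1, sub_neg_eq_add, ← map_add, R.norm_map]
    exact (crit_F (R_mem hx)).hc

theorem norm_ctr (i : Fin 4) : ‖ctr i‖ = 1 := by
  fin_cases i
  · exact norm_e1
  · show ‖-e1‖ = 1
    rw [norm_neg, norm_e1]
  · exact norm_e2
  · show ‖-e2‖ = 1
    rw [norm_neg, norm_e2]

theorem norm_e1_sub_e2 : ‖e1 - e2‖ = √2 := by
  rw [eq_comm, Real.sqrt_eq_iff_mul_self_eq (by norm_num) (norm_nonneg _), ← sq,
    norm_sub_sq_real, norm_e1, norm_e2, inner_e1_e2]
  norm_num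

theorem norm_e1_add_e2 : ‖e1 + e2‖ = √2 := by
  rw [eq_comm, Real.sqrt_eq_iff_mul_self_eq (by norm_num) (norm_nonneg _), ← sq,
    norm_add_sq_real, norm_e1, norm_e2, inner_e1_e2]
  norm_num

theorem sqrt2_lt : √2 < 142 / 100 := by
  rw [Real.sqrt_lt' (by norm_num)]; norm_num

theorem sqrt2_gt : 1 < √2 := by
  rw [Real.lt_sqrt (by norm_num)]; norm_num

theorem ctr_far (i j : Fin 4) (hij : i ≠ j) : 1 ≤ ‖ctr i - ctr j‖ := by
  have h1 := norm_e1_sub_e2
  have h2 := norm_e1_add_e2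
  have h3 : ‖e2 - e1‖ = √2 := by rw [norm_sub_rev]; exact h1
  have h4 : ‖e2 + e1‖ = √2 := by rw [add_comm]; exact h2
  have h5 : ‖e1 + e1‖ = 2 := by rw [← two_smul ℝ e1, norm_smul, norm_e1]; norm_num
  have h6 : ‖e2 + e2‖ = 2 := by rw [← two_smul ℝ e2, norm_smul, norm_e2]; norm_num
  have h7 := sqrt2_gt
  have g1 : ‖-e1 - e1‖ = 2 := by rw [← h5, ← norm_neg]; congr 1; abel
  have g2 : ‖-e1 - e2‖ = √2 := by rw [← h2, ← norm_neg]; congr 1; abel
  have g3 : ‖-e2 - e2‖ = 2 := by rw [← h6, ← norm_neg]; congr 1; abel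
  have g4 : ‖-e2 - e1‖ = √2 := by rw [← h2, ← norm_neg]; congr 1; abel
  have g5 : ‖e2 - -e1‖ = √2 := by rw [← h4]; congr 1; abel
  have g6 : ‖e2 - -e2‖ = 2 := by rw [← h6]; congr 1; abel
  have g7 : ‖e1 - -e1‖ = 2 := by rw [← h5]; congr 1; abel
  have g8 : ‖e1 - -e2‖ = √2 := by rw [← h2]; congr 1; abel
  have g9 : ‖-e1 - -e2‖ = √2 := by rw [← h1, ← norm_neg]; congr 1; abel
  have g10 : ‖-e2 - -e1‖ = √2 := by rw [← h1]; congr 1; abel
  have g11 : ‖-e1 + e2‖ = √2 := by rw [← h3]; congr 1; abel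
  have g12 : ‖-e2 + e1‖ = √2 := by rw [← h1]; congr 1; abel
  fin_cases i <;> fin_cases j <;> simp [ctr] at hij ⊢ <;> linarith

/-- Opposite sites. -/
def Opp (i j : Fin 4) : Prop := (i = 0 ∧ j = 1) ∨ (i = 1 ∧ j = 0) ∨ (i = 2 ∧ j = 3) ∨ (i = 3 ∧ j = 2)

theorem ctr_near (i j : Fin 4) (hij : ¬ Opp i j) : ‖ctr i - ctr j‖ ≤ 142 / 100 := by
  have h1 := norm_e1_sub_e2
  have h2 := norm_e1_add_e2
  have h3 : ‖e2 - e1‖ = √2 := by rw [norm_sub_rev]; exact h1
  have h4 : ‖e2 + e1‖ = √2 := by rw [add_comm]; exact h2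
  have h7 := sqrt2_lt
  have g2 : ‖-e1 - e2‖ = √2 := by rw [← h2, ← norm_neg]; congr 1; abel
  have g4 : ‖-e2 - e1‖ = √2 := by rw [← h2, ← norm_neg]; congr 1; abel
  have g5 : ‖e2 - -e1‖ = √2 := by rw [← h4]; congr 1; abel
  have g8 : ‖e1 - -e2‖ = √2 := by rw [← h2]; congr 1; abel
  have g9 : ‖-e1 - -e2‖ = √2 := by rw [← h1, ← norm_neg]; congr 1; abel
  have g10 : ‖-e2 - -e1‖ = √2 := by rw [← h1]; congr 1; abel
  have g11 : ‖-e1 + e2‖ = √2 := by rw [← h3]; congr 1; abel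
  have g12 : ‖-e2 + e1‖ = √2 := by rw [← h1]; congr 1; abel
  fin_cases i <;> fin_cases j <;> simp [ctr, Opp] at hij ⊢ <;> linarith

theorem ctr_le (i j : Fin 4) : ‖ctr i - ctr j‖ ≤ 2 := by
  have := norm_sub_le (ctr i) (ctr j)
  rw [norm_ctr, norm_ctr] at this
  linarith

end Vale.Agent.H13.P121
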