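import Mathlib
import Vale.Agent.H13.P121.Global

/-!
The potential and its properties.
-/

open MeasureTheory
open scoped ENNReal RealInnerProductSpace

namespace Vale.Agent.H13.P121

/-- Value of the potential at `bF a`. -/
noncomputable def valB (a : R3) : ℝ := energy e1 a (bF a) (cF a) - 21 / 10

/-- The potential near `e1`. -/
noncomputable def psi : R3 → ℝ :=
  Function.extend (fun a : A0 => bF a) (fun a : A0 => valB a) 0

theorem meas_valB : Measurable valB := by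
  have h1 := meas_b
  have h2 := meas_c
  unfold valB energy
  fun_prop

theorem emb_b : MeasurableEmbedding (fun a : A0 => bF a) := by
  have hc : CompactSpace A0 := isCompact_iff_compactSpace.mp (isCompact_closedBall _ _)
  have hcont : Continuous (fun a : A0 => bF a) := contOn_b.domRestrict
  refine (hcont.isClosedEmbedding ?_).measurableEmbedding
  rintro ⟨x, hx⟩ ⟨y, hy⟩ hxy
  exact Subtype.ext (F_inj 0 hx hy hxy)

theorem psi_b {a : R3} (ha : a ∈ A0) : psi (bF a) = valB a :=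
  emb_b.injective.extend_apply _ _ (⟨a, ha⟩ : A0)

theorem meas_psi : Measurable psi :=
  emb_b.measurable_extend (meas_valB.comp measurable_subtype_coe) measurable_const

/-- The real-valued potential. -/
noncomputable def pot (x : R3) : ℝ :=
  if ‖x‖ ≤ 1 / 2 then 17 / 10 - 500 * ‖x‖ ^ 2
  else if ‖x - e1‖ ≤ 1 / 2 then psi x
  else if ‖x - -e1‖ ≤ 1 / 2 then 4 / 10 - 500 * ‖x + (799 / 800 : ℝ) • e1‖ ^ 2
  else if ‖x - e2‖ ≤ 1 / 2 then psi (R x)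
  else 4 / 10 - 500 * ‖R x + (799 / 800 : ℝ) • e1‖ ^ 2

theorem meas_pot : Measurable pot := by
  have hR : Measurable R := R.continuous.measurable
  have hpsi := meas_psi
  unfold pot
  refine Measurable.ite (measurableSet_le (by fun_prop) (by fun_prop)) (by fun_prop) ?_
  refine Measurable.ite (measurableSet_le (by fun_prop) (by fun_prop)) (by fun_prop) ?_
  refine Measurable.ite (measurableSet_le (by fun_prop) (by fun_prop)) (by fun_prop) ?_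
  refine Measurable.ite (measurableSet_le (by fun_prop) (by fun_prop)) (by fun_prop) ?_
  fun_prop

theorem site_norm {i : Fin 4} {x : R3} (hx : ‖x - ctr i‖ ≤ 1 / 100) : ¬ ‖x‖ ≤ 1 / 2 := by
  have h1 := norm_sub_norm_le (ctr i) (ctr i - x)
  rw [norm_ctr, norm_sub_rev (ctr i) x, show ctr i - (ctr i - x) = x by abel] at h1
  intro h
  linarith

theorem site_far {i j : Fin 4} {x : R3} (hx : ‖x - ctr i‖ ≤ 1 / 100) (hij : i ≠ j) :
    ¬ ‖x - ctr j‖ ≤ 1 / 2 := by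
  have h1 := ctr_far i j hij
  have h2 : ‖ctr i - ctr j‖ ≤ ‖x - ctr j‖ + ‖x - ctr i‖ := by
    calc ‖ctr i - ctr j‖ = ‖(x - ctr j) - (x - ctr i)‖ := by congr 1; abel
      _ ≤ _ := norm_sub_le _ _
  intro h
  linarith

theorem pot_A {a : R3} (ha : a ∈ A0) : pot a = 17 / 10 - 500 * ‖a‖ ^ 2 := by
  have := A0_small ha
  rw [pot, if_pos (by linarith)]

theorem ctr_0 : ctr 0 = e1 := rfl
theorem ctr_1 : ctr 1 = -e1 := rfl
theorem ctr_2 : ctr 2 = e2 := rfl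
theorem ctr_3 : ctr 3 = -e2 := rfl

theorem pot_0 {a : R3} (ha : a ∈ A0) : pot (bF a) = valB a := by
  have h := F_ctr 0 ha
  have h1 := site_norm h
  rw [F0, ctr_0] at h
  rw [F0] at h1
  have h2 : ‖bF a - e1‖ ≤ 1 / 2 := le_trans h (by norm_num)
  rw [pot, if_neg h1, if_pos h2, psi_b ha]

theorem pot_1 {a : R3} (ha : a ∈ A0) :
    pot (cF a) = 4 / 10 - 500 * ‖cF a + (799 / 800 : ℝ) • e1‖ ^ 2 := by
  have h := F_ctr 1 ha
  have h1 := site_norm h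
  have h2 := site_far h (show (1 : Fin 4) ≠ 0 by decide)
  rw [F1, ctr_1] at h
  rw [F1] at h1
  rw [F1, ctr_0] at h2
  have h3 : ‖cF a - -e1‖ ≤ 1 / 2 := le_trans h (by norm_num)
  rw [pot, if_neg h1, if_neg h2, if_pos h3]

theorem pot_2 {a : R3} (ha : a ∈ A0) : pot (F 2 a) = valB (R a) := by
  have h := F_ctr 2 ha
  have h1 := site_norm h
  have h2 := site_far h (show (2 : Fin 4) ≠ 0 by decide)
  have h3 := site_far h (show (2 : Fin 4) ≠ 1 by decide)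
  rw [ctr_2] at h
  rw [ctr_0] at h2
  rw [ctr_1] at h3
  have h4 : ‖F 2 a - e2‖ ≤ 1 / 2 := le_trans h (by norm_num)
  rw [pot, if_neg h1, if_neg h2, if_neg h3, if_pos h4, F2, R_R, psi_b (R_mem ha)]

theorem pot_3 {a : R3} (ha : a ∈ A0) :
    pot (F 3 a) = 4 / 10 - 500 * ‖cF (R a) + (799 / 800 : ℝ) • e1‖ ^ 2 := by
  have h := F_ctr 3 ha
  have h1 := site_norm h
  have h2 := site_far h (show (3 : Fin 4) ≠ 0 by decide)
  have h3 := site_far h (show (3 : Fin 4) ≠ 1 by decide)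
  have h4 := site_far h (show (3 : Fin 4) ≠ 2 by decide)
  rw [ctr_0] at h2
  rw [ctr_1] at h3
  rw [ctr_2] at h4
  rw [pot, if_neg h1, if_neg h2, if_neg h3, if_neg h4, F3, R_R]

/-- Sum of inverse distances. -/
noncomputable def gr (x y z : R3) : ℝ := ‖x - y‖⁻¹ + ‖x - z‖⁻¹ + ‖y - z‖⁻¹

theorem energy_eq (a b c : R3) :
    energy e1 a b c = gr a b c + 500 * ‖a‖ ^ 2 + 500 * ‖c + (799 / 800 : ℝ) • e1‖ ^ 2 := rfl

/-- Bounds on the `c`-confinement energy. -/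
theorem conf_le {a : R3} (ha : a ∈ A0) :
    500 * ‖cF a + (799 / 800 : ℝ) • e1‖ ^ 2 ≤ 1 / 1000 := by
  have h := crit_F ha
  have n1 : 198 / 100 ≤ ‖cF a - bF a‖ := by
    rw [norm_sub_rev]; exact norm_bc norm_e1 h.hb h.hc
  have n2 : 98 / 100 ≤ ‖cF a - a‖ := by
    rw [norm_sub_rev]; exact norm_ac norm_e1 (A0_small ha) h.hc
  have h1 : 1000 * ‖cF a + (799 / 800 : ℝ) • e1‖ ≤ ‖N (cF a - bF a)‖ + ‖N (cF a - a)‖ := by
    calc 1000 * ‖cF a + (799 / 800 : ℝ) • e1‖ = ‖(1000 : ℝ) • (cF a + (799 / 800 : ℝ) • e1)‖ := by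
          rw [norm_smul]; norm_num
      _ = ‖N (cF a - bF a) + N (cF a - a)‖ := by rw [h.force_c]
      _ ≤ _ := norm_add_le _ _
  rw [norm_N (norm_pos_iff.mp (by linarith)), norm_N (norm_pos_iff.mp (by linarith))] at h1
  have h2 : (‖cF a - bF a‖ ^ 2)⁻¹ ≤ ((198 / 100 : ℝ) ^ 2)⁻¹ := by gcongr
  have h3 : (‖cF a - a‖ ^ 2)⁻¹ ≤ ((98 / 100 : ℝ) ^ 2)⁻¹ := by gcongr
  norm_num at h2 h3
  have h4 : ‖cF a + (799 / 800 : ℝ) • e1‖ ≤ 13 / 10000 := by linarith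
  have h5 : ‖cF a + (799 / 800 : ℝ) • e1‖ ^ 2 ≤ (13 / 10000) ^ 2 := by gcongr
  norm_num at h5
  linarith

theorem gr_bounds {a : R3} (ha : a ∈ A0) :
    245 / 100 ≤ gr a (bF a) (cF a) ∧ gr a (bF a) (cF a) ≤ 2547 / 1000 := by
  have h := crit_F ha
  have ha' := A0_small ha
  have l1 := norm_ab norm_e1 ha' h.hb
  have l2 := norm_ac norm_e1 ha' h.hc
  have l3 := norm_bc norm_e1 h.hb h.hc
  have u1 := norm_ab_le norm_e1 ha' h.hb
  have u2 : ‖a - cF a‖ ≤ 102 / 100 :=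
    norm_ab_le (e := -e1) (by rw [norm_neg, norm_e1]) ha' (by rw [sub_neg_eq_add]; exact h.hc)
  have u3 := norm_bc_le norm_e1 h.hb h.hc
  have p1 : ‖a - bF a‖⁻¹ ≤ (98 / 100 : ℝ)⁻¹ := by gcongr
  have p2 : ‖a - cF a‖⁻¹ ≤ (98 / 100 : ℝ)⁻¹ := by gcongr
  have p3 : ‖bF a - cF a‖⁻¹ ≤ (198 / 100 : ℝ)⁻¹ := by gcongr
  have q1 : (102 / 100 : ℝ)⁻¹ ≤ ‖a - bF a‖⁻¹ := inv_anti₀ (by linarith) u1
  have q2 : (102 / 100 : ℝ)⁻¹ ≤ ‖a - cF a‖⁻¹ := inv_anti₀ (by linarith) u2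
  have q3 : (202 / 100 : ℝ)⁻¹ ≤ ‖bF a - cF a‖⁻¹ := inv_anti₀ (by linarith) u3
  norm_num at p1 p2 p3 q1 q2 q3
  unfold gr
  constructor <;> linarith

theorem valB_bounds {a : R3} (ha : a ∈ A0) : 0 ≤ valB a ∧ valB a ≤ 9 / 20 := by
  obtain ⟨h1, h2⟩ := gr_bounds ha
  have h3 := conf_le ha
  have h4 : 500 * ‖a‖ ^ 2 ≤ 1 / 1000 := by
    have := mem_A0.mp ha
    have h5 : ‖a‖ ^ 2 ≤ (1 / 10 ^ 6) ^ 2 := by gcongr
    norm_num at h5 ⊢
    linarith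
  have h5 : 0 ≤ ‖a‖ ^ 2 := by positivity
  have h6 : 0 ≤ ‖cF a + (799 / 800 : ℝ) • e1‖ ^ 2 := by positivity
  rw [valB, energy_eq]
  constructor <;> linarith

theorem pot_outer (i : Fin 4) {a : R3} (ha : a ∈ A0) : 0 ≤ pot (F i a) ∧ pot (F i a) ≤ 9 / 20 := by
  have hq : ∀ x : R3, x ∈ A0 → 0 ≤ 4 / 10 - 500 * ‖cF x + (799 / 800 : ℝ) • e1‖ ^ 2 ∧
      4 / 10 - 500 * ‖cF x + (799 / 800 : ℝ) • e1‖ ^ 2 ≤ 9 / 20 := by
    intro x hx
    have h1 := conf_le hx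
    have h6 : 0 ≤ ‖cF x + (799 / 800 : ℝ) • e1‖ ^ 2 := by positivity
    constructor <;> linarith
  match i with
  | 0 => rw [F0, pot_0 ha]; exact valB_bounds ha
  | 1 => rw [F1, pot_1 ha]; exact hq a ha
  | 2 => rw [pot_2 ha]; exact valB_bounds (R_mem ha)
  | 3 => rw [pot_3 ha]; exact hq _ (R_mem ha)

theorem pot_inner {a : R3} (ha : a ∈ A0) : 0 ≤ pot a ∧ pot a ≤ 17 / 10 := by
  rw [pot_A ha]
  have h4 : 500 * ‖a‖ ^ 2 ≤ 1 / 1000 := by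
    have := mem_A0.mp ha
    have h5 : ‖a‖ ^ 2 ≤ (1 / 10 ^ 6) ^ 2 := by gcongr
    norm_num at h5 ⊢
    linarith
  have h5 : 0 ≤ ‖a‖ ^ 2 := by positivity
  constructor <;> linarith

/-- The basic contact inequality. -/
theorem contact_basic {a a₁ a₂ : R3} (ha : a ∈ A0) (h₁ : a₁ ∈ A0) (h₂ : a₂ ∈ A0) :
    (17 / 10 - 500 * ‖a‖ ^ 2) + valB a₁ + (4 / 10 - 500 * ‖cF a₂ + (799 / 800 : ℝ) • e1‖ ^ 2)
      + 400 * (‖a - a₁‖ ^ 2 + ‖cF a₂ - cF a₁‖ ^ 2) ≤ gr a (bF a₁) (cF a₂) := by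
  have h := contact norm_e1 (A0_small h₁) (crit_F h₁) (A0_small ha) (crit_F h₂).hc
  rw [energy_eq a] at h
  rw [valB]
  linarith

theorem eq_basic {a : R3} :
    (17 / 10 - 500 * ‖a‖ ^ 2) + valB a + (4 / 10 - 500 * ‖cF a + (799 / 800 : ℝ) • e1‖ ^ 2)
      = gr a (bF a) (cF a) := by
  rw [valB, energy_eq a]
  ring

theorem gr_swap (x y z : R3) : gr x y z = gr x z y := by
  rw [gr, gr, norm_sub_rev y z]; ring

theorem gr_R (x y z : R3) : gr x (R y) (R z) = gr (R x) y z := by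
  have h : ∀ u v : R3, ‖R u - R v‖ = ‖u - v‖ := fun u v => by rw [← map_sub, R.norm_map]
  have h1 : ∀ v, ‖x - R v‖ = ‖R x - v‖ := fun v => by
    rw [← h x (R v), R_R]
  rw [gr, gr, h1, h1, h]

theorem norm_R (x : R3) : ‖R x‖ = ‖x‖ := R.norm_map x

theorem dist_inner {a : R3} (ha : a ∈ A0) (i : Fin 4) {x : R3} (hx : ‖x - ctr i‖ ≤ 1 / 100) :
    98 / 100 ≤ ‖a - x‖ := norm_ab (norm_ctr i) (A0_small ha) hx

theorem dist_inner_le {a : R3} (ha : a ∈ A0) (i : Fin 4) {x : R3} (hx : ‖x - ctr i‖ ≤ 1 / 100) :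
    ‖a - x‖ ≤ 102 / 100 := norm_ab_le (norm_ctr i) (A0_small ha) hx

theorem dist_outer_le {i j : Fin 4} {r : ℝ} (h : ‖ctr i - ctr j‖ ≤ r) {x y : R3}
    (hx : ‖x - ctr i‖ ≤ 1 / 100) (hy : ‖y - ctr j‖ ≤ 1 / 100) : ‖x - y‖ ≤ r + 1 / 50 := by
  have h1 : ‖x - y‖ ≤ ‖x - ctr i‖ + ‖ctr i - ctr j‖ + ‖y - ctr j‖ := by
    calc ‖x - y‖ = ‖((x - ctr i) + (ctr i - ctr j)) - (y - ctr j)‖ := by congr 1; abel
      _ ≤ ‖(x - ctr i) + (ctr i - ctr j)‖ + ‖y - ctr j‖ := norm_sub_le _ _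
      _ ≤ _ := by gcongr; exact norm_add_le _ _
  linarith

/-- For opposite sites the contact inequality holds, with equality only on the contact set. -/
theorem opp_case {i j : Fin 4} (hij : Opp i j) {a a₁ a₂ : R3} (ha : a ∈ A0) (h₁ : a₁ ∈ A0)
    (h₂ : a₂ ∈ A0) :
    pot a + pot (F i a₁) + pot (F j a₂) ≤ gr a (F i a₁) (F j a₂) ∧
    (pot a + pot (F i a₁) + pot (F j a₂) = gr a (F i a₁) (F j a₂) → F i a₁ = F i a) := by
  have key : ∀ u v w : R3, u ∈ A0 → v ∈ A0 → w ∈ A0 →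
      (17 / 10 - 500 * ‖u‖ ^ 2) + valB v + (4 / 10 - 500 * ‖cF w + (799 / 800 : ℝ) • e1‖ ^ 2)
        = gr u (bF v) (cF w) → v = u ∧ cF w = cF v := by
    intro u v w hu hv hw heq
    have h := contact_basic hu hv hw
    have h1 : ‖u - v‖ ^ 2 = 0 := by
      have := sq_nonneg ‖u - v‖
      have := sq_nonneg ‖cF w - cF v‖
      linarith
    have h2 : ‖cF w - cF v‖ ^ 2 = 0 := by
      have := sq_nonneg ‖u - v‖
      have := sq_nonneg ‖cF w - cF v‖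
      linarith
    have h3 : u - v = 0 := by
      rw [← norm_eq_zero]; exact pow_eq_zero_iff (two_ne_zero) |>.mp h1
    have h4 : cF w - cF v = 0 := by
      rw [← norm_eq_zero]; exact pow_eq_zero_iff (two_ne_zero) |>.mp h2
    exact ⟨(sub_eq_zero.mp h3).symm, sub_eq_zero.mp h4⟩
  have key' : ∀ u v w : R3, u ∈ A0 → v ∈ A0 → w ∈ A0 →
      (17 / 10 - 500 * ‖u‖ ^ 2) + valB v + (4 / 10 - 500 * ‖cF w + (799 / 800 : ℝ) • e1‖ ^ 2)
        ≤ gr u (bF v) (cF w) := by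
    intro u v w hu hv hw
    have h := contact_basic hu hv hw
    have := sq_nonneg ‖u - v‖
    have := sq_nonneg ‖cF w - cF v‖
    linarith
  rcases hij with ⟨rfl, rfl⟩ | ⟨rfl, rfl⟩ | ⟨rfl, rfl⟩ | ⟨rfl, rfl⟩
  · rw [F0, F1, F0, pot_A ha, pot_0 h₁, pot_1 h₂]
    refine ⟨key' _ _ _ ha h₁ h₂, fun h => ?_⟩
    rw [(key _ _ _ ha h₁ h₂ h).1]
  · rw [F0, F1, F1, pot_A ha, pot_0 h₂, pot_1 h₁, gr_swap]
    refine ⟨by linarith [key' _ _ _ ha h₂ h₁], fun h => ?_⟩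
    obtain ⟨h3, h4⟩ := key _ _ _ ha h₂ h₁ (by linarith)
    rw [h4, h3]
  · rw [pot_A ha, pot_2 h₁, pot_3 h₂, F2, F3, F2, gr_R, ← norm_R a]
    refine ⟨key' _ _ _ (R_mem ha) (R_mem h₁) (R_mem h₂), fun h => ?_⟩
    rw [(key _ _ _ (R_mem ha) (R_mem h₁) (R_mem h₂) h).1]
  · rw [pot_A ha, pot_2 h₂, pot_3 h₁, F2, F3, F3, gr_R, ← norm_R a, gr_swap]
    refine ⟨by linarith [key' _ _ _ (R_mem ha) (R_mem h₂) (R_mem h₁)], fun h => ?_⟩
    obtain ⟨h3, h4⟩ := key _ _ _ (R_mem ha) (R_mem h₂) (R_mem h₁) (by linarith)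
    rw [h4, h3]

theorem opp_eq {a : R3} (ha : a ∈ A0) :
    pot a + pot (F 0 a) + pot (F 1 a) = gr a (F 0 a) (F 1 a) ∧
    pot a + pot (F 2 a) + pot (F 3 a) = gr a (F 2 a) (F 3 a) := by
  constructor
  · rw [F0, F1, pot_A ha, pot_0 ha, pot_1 ha]; exact eq_basic
  · rw [pot_A ha, pot_2 ha, pot_3 ha, F2, F3, gr_R, ← norm_R a]; exact eq_basic

end Vale.Agent.H13.P121
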