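import Mathlib
import Vale.Agent.H13.P121.Pot

/-!
Assembly of the counterexample.
-/

open MeasureTheory
open scoped ENNReal RealInnerProductSpace

namespace Vale.Agent.H13.P121

/-- The `ENNReal`-valued potential. -/
noncomputable def phi (x : R3) : ℝ≥0∞ := ENNReal.ofReal (pot x)

theorem meas_phi : Measurable phi := meas_pot.ennreal_ofReal

theorem inv_edist_ge {x y : R3} {r : ℝ} (hr : 0 < r) (h : ‖x - y‖ ≤ r) :
    ENNReal.ofReal r⁻¹ ≤ (edist x y)⁻¹ := by
  rw [ENNReal.ofReal_inv_of_pos hr, edist_dist, dist_eq_norm]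
  exact ENNReal.inv_le_inv' (ENNReal.ofReal_le_ofReal h)

theorem inv_edist_eq {x y : R3} (h : 0 < ‖x - y‖) :
    (edist x y)⁻¹ = ENNReal.ofReal ‖x - y‖⁻¹ := by
  rw [ENNReal.ofReal_inv_of_pos h, edist_dist, dist_eq_norm]

theorem coul_eq {x y z : R3} (hxy : 0 < ‖x - y‖) (hxz : 0 < ‖x - z‖) (hyz : 0 < ‖y - z‖) :
    coulombCost x y z = ENNReal.ofReal (gr x y z) := by
  rw [coulombCost, inv_edist_eq hxy, inv_edist_eq hxz, inv_edist_eq hyz, gr,
    ENNReal.ofReal_add (by positivity) (by positivity),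
    ENNReal.ofReal_add (by positivity) (by positivity)]

theorem phi_sum {x y z : R3} (hx : 0 ≤ pot x) (hy : 0 ≤ pot y) (hz : 0 ≤ pot z) :
    phi x + phi y + phi z = ENNReal.ofReal (pot x + pot y + pot z) := by
  rw [phi, phi, phi, ENNReal.ofReal_add (by positivity) (by positivity),
    ENNReal.ofReal_add (by positivity) (by positivity)]

/-- Membership in the support set. -/
def InS (x : R3) : Prop := x ∈ A0 ∨ ∃ i, x ∈ F i '' A0

theorem pot_S {x : R3} (hx : InS x) : 0 ≤ pot x ∧ pot x ≤ 17 / 10 := by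
  rcases hx with hx | ⟨i, a, ha, rfl⟩
  · exact pot_inner hx
  · have := pot_outer i ha
    exact ⟨this.1, by linarith [this.2]⟩

theorem coul_swap12 (x y z : R3) : coulombCost x y z = coulombCost y x z := by
  rw [coulombCost, coulombCost, edist_comm x y]; ring

theorem coul_swap23 (x y z : R3) : coulombCost x y z = coulombCost x z y := by
  rw [coulombCost, coulombCost, edist_comm y z]; ring

/-- Two points in the inner ball: strict inequality. -/
theorem two_inner {x y z : R3} (hx : x ∈ A0) (hy : y ∈ A0) (hz : InS z) :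
    phi x + phi y + phi z < coulombCost x y z := by
  have h1 : ‖x - y‖ ≤ 1 / 10 := by
    have := norm_sub_le x y
    have h3 := A0_small hx
    have h4 := A0_small hy
    linarith
  have h2 := inv_edist_ge (by norm_num) h1
  have hx' := pot_inner hx
  have hy' := pot_inner hy
  have hz' := pot_S hz
  calc phi x + phi y + phi z = ENNReal.ofReal (pot x + pot y + pot z) :=
        phi_sum hx'.1 hy'.1 hz'.1
    _ ≤ ENNReal.ofReal (6 : ℝ) := ENNReal.ofReal_le_ofReal (by linarith)
    _ < ENNReal.ofReal (1 / 10 : ℝ)⁻¹ := by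
        apply ENNReal.ofReal_lt_ofReal_iff_of_nonneg (by norm_num) |>.mpr
        norm_num
    _ ≤ (edist x y)⁻¹ := h2
    _ ≤ coulombCost x y z := by
        rw [coulombCost, add_assoc]; exact le_self_add

/-- One inner point, two outer points in non-opposite sites: strict inequality. -/
theorem non_opp {a a₁ a₂ : R3} {i j : Fin 4} (hij : ¬ Opp i j) (ha : a ∈ A0) (h₁ : a₁ ∈ A0)
    (h₂ : a₂ ∈ A0) :
    phi a + phi (F i a₁) + phi (F j a₂) < coulombCost a (F i a₁) (F j a₂) := by
  have c1 := F_ctr i h₁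
  have c2 := F_ctr j h₂
  have d1 := inv_edist_ge (by norm_num) (dist_inner_le ha i c1)
  have d2 := inv_edist_ge (by norm_num) (dist_inner_le ha j c2)
  have d3 := inv_edist_ge (by norm_num) (dist_outer_le (ctr_near i j hij) c1 c2)
  have ha' := pot_inner ha
  have hy' := pot_outer i h₁
  have hz' := pot_outer j h₂
  calc phi a + phi (F i a₁) + phi (F j a₂)
      = ENNReal.ofReal (pot a + pot (F i a₁) + pot (F j a₂)) := phi_sum ha'.1 hy'.1 hz'.1
    _ ≤ ENNReal.ofReal (26 / 10 : ℝ) := ENNReal.ofReal_le_ofReal (by linarith)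
    _ < ENNReal.ofReal ((102 / 100 : ℝ)⁻¹ + (102 / 100 : ℝ)⁻¹ + (142 / 100 + 1 / 50 : ℝ)⁻¹) := by
        apply ENNReal.ofReal_lt_ofReal_iff_of_nonneg (by norm_num) |>.mpr
        norm_num
    _ = ENNReal.ofReal (102 / 100 : ℝ)⁻¹ + ENNReal.ofReal (102 / 100 : ℝ)⁻¹
          + ENNReal.ofReal (142 / 100 + 1 / 50 : ℝ)⁻¹ := by
        rw [ENNReal.ofReal_add (by norm_num) (by norm_num),
          ENNReal.ofReal_add (by norm_num) (by norm_num)]
    _ ≤ _ := by
        rw [coulombCost]
        gcongr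

/-- One inner point, two outer points in opposite sites. -/
theorem opp_coul {a a₁ a₂ : R3} {i j : Fin 4} (ha : a ∈ A0) (h₁ : a₁ ∈ A0)
    (h₂ : a₂ ∈ A0) (hij : Opp i j) :
    coulombCost a (F i a₁) (F j a₂) = ENNReal.ofReal (gr a (F i a₁) (F j a₂)) := by
  have c1 := F_ctr i h₁
  have c2 := F_ctr j h₂
  have d1 := dist_inner ha i c1
  have d2 := dist_inner ha j c2
  have hne : i ≠ j := by
    rintro rfl
    rcases hij with ⟨h, h'⟩ | ⟨h, h'⟩ | ⟨h, h'⟩ | ⟨h, h'⟩ <;> rw [h] at h' <;>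
      exact absurd h' (by decide)
  have d3 : 0 < ‖F i a₁ - F j a₂‖ := by
    have h := site_far c1 hne
    rw [norm_pos_iff, sub_ne_zero]
    intro heq
    rw [heq] at h
    exact h (le_trans c2 (by norm_num))
  exact coul_eq (by linarith) (by linarith) d3

theorem one_inner {a a₁ a₂ : R3} (i j : Fin 4) (ha : a ∈ A0) (h₁ : a₁ ∈ A0)
    (h₂ : a₂ ∈ A0) :
    phi a + phi (F i a₁) + phi (F j a₂) ≤ coulombCost a (F i a₁) (F j a₂) ∧
    (coulombCost a (F i a₁) (F j a₂) = phi a + phi (F i a₁) + phi (F j a₂) →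
      F i a₁ = F i a) := by
  by_cases hij : Opp i j
  · rw [opp_coul ha h₁ h₂ hij, phi_sum (pot_inner ha).1 (pot_outer i h₁).1 (pot_outer j h₂).1]
    obtain ⟨h3, h4⟩ := opp_case hij ha h₁ h₂
    refine ⟨ENNReal.ofReal_le_ofReal h3, fun h => h4 ?_⟩
    have p0 : 0 ≤ pot a + pot (F i a₁) + pot (F j a₂) := by
      have := (pot_inner ha).1
      have := (pot_outer i h₁).1
      have := (pot_outer j h₂).1
      linarith
    exact ((ENNReal.ofReal_eq_ofReal_iff (p0.trans h3) p0).mp h).symm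
  · have := non_opp hij ha h₁ h₂
    exact ⟨this.le, fun h => absurd h this.ne'⟩

/-- Three outer points. -/
theorem three_outer {a₁ a₂ a₃ : R3} (i j k : Fin 4) (h₁ : a₁ ∈ A0) (h₂ : a₂ ∈ A0)
    (h₃ : a₃ ∈ A0) :
    phi (F i a₁) + phi (F j a₂) + phi (F k a₃) ≤ coulombCost (F i a₁) (F j a₂) (F k a₃) := by
  have c1 := F_ctr i h₁
  have c2 := F_ctr j h₂
  have c3 := F_ctr k h₃
  have d1 := inv_edist_ge (by norm_num) (dist_outer_le (ctr_le i j) c1 c2)
  have d2 := inv_edist_ge (by norm_num) (dist_outer_le (ctr_le i k) c1 c3)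
  have d3 := inv_edist_ge (by norm_num) (dist_outer_le (ctr_le j k) c2 c3)
  have hx' := pot_outer i h₁
  have hy' := pot_outer j h₂
  have hz' := pot_outer k h₃
  calc phi (F i a₁) + phi (F j a₂) + phi (F k a₃)
      = ENNReal.ofReal (pot (F i a₁) + pot (F j a₂) + pot (F k a₃)) := phi_sum hx'.1 hy'.1 hz'.1
    _ ≤ ENNReal.ofReal ((2 + 1 / 50 : ℝ)⁻¹ + (2 + 1 / 50 : ℝ)⁻¹ + (2 + 1 / 50 : ℝ)⁻¹) := by
        apply ENNReal.ofReal_le_ofReal
        norm_num
        linarith
    _ = ENNReal.ofReal (2 + 1 / 50 : ℝ)⁻¹ + ENNReal.ofReal (2 + 1 / 50 : ℝ)⁻¹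
          + ENNReal.ofReal (2 + 1 / 50 : ℝ)⁻¹ := by
        rw [ENNReal.ofReal_add (by norm_num) (by norm_num),
          ENNReal.ofReal_add (by norm_num) (by norm_num)]
    _ ≤ _ := by
        rw [coulombCost]
        gcongr

theorem ineq_S (x y z : R3) (hx : InS x) (hy : InS y) (hz : InS z) :
    phi x + phi y + phi z ≤ coulombCost x y z := by
  rcases hx with hx | ⟨i, a₁, h₁, rfl⟩
  · rcases hy with hy | ⟨j, a₂, h₂, rfl⟩
    · exact (two_inner hx hy hz).le
    · rcases hz with hz | ⟨k, a₃, h₃, rfl⟩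
      · rw [coul_swap23, add_right_comm]
        exact (two_inner hx hz (Or.inr ⟨j, a₂, h₂, rfl⟩)).le
      · exact (one_inner j k hx h₂ h₃).1
  · rcases hy with hy | ⟨j, a₂, h₂, rfl⟩
    · rcases hz with hz | ⟨k, a₃, h₃, rfl⟩
      · rw [← coulombCost_rot, add_assoc, add_comm]
        exact (two_inner hy hz (Or.inr ⟨i, a₁, h₁, rfl⟩)).le
      · rw [coul_swap12, add_comm (phi (F i a₁))]
        exact (one_inner i k hy h₁ h₃).1
    · rcases hz with hz | ⟨k, a₃, h₃, rfl⟩
      · rw [coulombCost_rot, add_comm, ← add_assoc]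
        exact (one_inner i j hz h₁ h₂).1
      · exact three_outer i j k h₁ h₂ h₃

theorem contact_S (a : R3) (ha : a ∈ A0) (y z : R3) (hy : InS y) (hz : InS z)
    (h : coulombCost a y z = phi a + phi y + phi z) : ∃ i, y = F i a := by
  rcases hy with hy | ⟨j, a₂, h₂, rfl⟩
  · exact absurd h (two_inner ha hy hz).ne'
  · rcases hz with hz | ⟨k, a₃, h₃, rfl⟩
    · have := two_inner ha hz (Or.inr ⟨j, a₂, h₂, rfl⟩)
      rw [coul_swap23, add_right_comm] at h
      exact absurd h this.ne'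
    · exact ⟨j, (one_inner j k ha h₂ h₃).2 h⟩

/-- Volume of the inner ball. -/
theorem vol_ne_zero : (volume A0 : ℝ≥0∞) ≠ 0 :=
  (Metric.measure_closedBall_pos volume _ (by norm_num)).ne'

theorem vol_ne_top : (volume A0 : ℝ≥0∞) ≠ ∞ := measure_closedBall_lt_top.ne

/-- Uniform probability measure on the inner ball. -/
noncomputable def lam : Measure R3 := (volume A0)⁻¹ • volume.restrict A0

/-- The data of the counterexample. -/
noncomputable def data : Data where
  lam := lam
  prob := by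
    constructor
    rw [lam, Measure.smul_apply, Measure.restrict_apply MeasurableSet.univ, Set.univ_inter,
      smul_eq_mul]
    exact ENNReal.inv_mul_cancel vol_ne_zero vol_ne_top
  A := A0
  hA := meas_A0
  lamA := by
    rw [lam, Measure.smul_apply, Measure.restrict_apply meas_A0.compl, Set.compl_inter_self]
    simp
  f := F
  f_meas := F_meas
  f_inj := F_inj
  f_disj := by
    intro i j hij x hx y hy heq
    have h := site_far (F_ctr i hx) hij
    rw [heq] at h
    exact h (le_trans (F_ctr j hy) (by norm_num))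
  f_disjA := by
    intro i x hx h
    have h1 := site_norm (F_ctr i hx)
    exact h1 (le_trans (A0_small h) (by norm_num))
  φ := phi
  φ_meas := meas_phi
  φ_bdd := by
    intro x hx
    have := pot_S hx
    calc phi x ≤ ENNReal.ofReal 10 := ENNReal.ofReal_le_ofReal (by linarith)
      _ = 10 := by simp
  ineq := ineq_S
  eq01 := by
    intro a ha
    rw [opp_coul ha ha ha (Or.inl ⟨rfl, rfl⟩), ← (opp_eq ha).1,
      phi_sum (pot_inner ha).1 (pot_outer 0 ha).1 (pot_outer 1 ha).1]
  eq23 := by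
    intro a ha
    rw [opp_coul ha ha ha (Or.inr (Or.inr (Or.inl ⟨rfl, rfl⟩))), ← (opp_eq ha).2,
      phi_sum (pot_inner ha).1 (pot_outer 2 ha).1 (pot_outer 3 ha).1]
  contact := contact_S

theorem lam_ac : lam ≪ volume := by
  rw [lam]
  exact (Measure.restrict_le_self.absolutelyContinuous).smul_left _

theorem map_F_ac (i : Fin 4) : lam.map (F i) ≪ volume := by
  rw [lam, Measure.map_smul]
  refine Measure.AbsolutelyContinuous.smul_left ?_ _
  refine map_ac (F_meas i) (s := A0) (C := 100) ?_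
  intro x hx y hy
  exact_mod_cast F_anti i hx hy

theorem data_ac : data.μ ≪ volume := by
  have h : lam + lam + ∑ i, lam.map (F i) ≪ volume := by
    rw [Fin.sum_univ_four]
    refine Measure.AbsolutelyContinuous.add_left (lam_ac.add_left lam_ac) ?_
    exact (((map_F_ac 0).add_left (map_F_ac 1)).add_left (map_F_ac 2)).add_left (map_F_ac 3)
  exact Measure.AbsolutelyContinuous.smul_left h _

theorem main : ∃ μ : Measure R3, IsProbabilityMeasure μ ∧ μ ≪ volume ∧
    kantorovichValue μ < ∞ ∧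
    ∀ T₂ T₃ : R3 → R3, IsMongePlan μ T₂ T₃ → kantorovichValue μ < mongeCost μ T₂ T₃ := by
  refine ⟨data.μ, data.isProb, data_ac, ?_, data.no_monge⟩
  rw [data.kantorovich_eq]
  have := data.I_ne_top
  exact (ENNReal.add_ne_top.mpr ⟨ENNReal.add_ne_top.mpr ⟨this, this⟩, this⟩).lt_top

end Vale.Agent.H13.P121
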